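import Crest.Agent.R73.Ultra

/-!
The ultrafilter argument.
-/

set_option autoImplicit false
set_option linter.unusedSectionVars false

noncomputable section

namespace Crest.Agent.R73

open Finset Filter Topology Crest.Agent.Lib.HilbUltra
open scoped InnerProductSpace ComplexConjugate

variable {A : Type} [CStarAlgebra A]
variable {H : Type} [NormedAddCommGroup H] [InnerProductSpace ℂ H] [CompleteSpace H]

/-- the finite-stage quadratic form -/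
def QF (k : ℕ) (T : Fin 3 → Z3 → H →L[ℂ] H) (η : Vec (Y k) H) : ℝ :=
  ∑ i, ∑ a, (⟪PP k (gen i a) (T i a) η, η⟫_ℂ).re

theorem QF_smul (k : ℕ) (T : Fin 3 → Z3 → H →L[ℂ] H) (c : ℝ) (η : Vec (Y k) H) :
    QF k T ((c : ℂ) • η) = c ^ 2 * QF k T η := by
  simp only [QF, map_smul, inner_smul_left, inner_smul_right, Complex.conj_ofReal,
    Complex.re_ofReal_mul, mul_sum]
  refine sum_congr rfl fun i _ => sum_congr rfl fun a _ => by ring

theorem abs_QF_le (k : ℕ) {T : Fin 3 → Z3 → H →L[ℂ] H} {C : ℝ} (hT : ∀ i a, ‖T i a‖ ≤ C)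
    (η : Vec (Y k) H) : |QF k T η| ≤ 375 * C * ‖η‖ ^ 2 := by
  have h1 : ∀ i a, |(⟪PP k (gen i a) (T i a) η, η⟫_ℂ).re| ≤ C * ‖η‖ ^ 2 := by
    intro i a
    refine (Complex.abs_re_le_norm _).trans ((norm_inner_le_norm _ _).trans ?_)
    rw [sq, ← mul_assoc]
    refine mul_le_mul_of_nonneg_right ((ContinuousLinearMap.le_opNorm _ _).trans ?_)
      (norm_nonneg _)
    exact mul_le_mul_of_nonneg_right ((norm_PP_le _ _ _).trans (hT i a)) (norm_nonneg _)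
  refine (abs_sum_le_sum_abs _ _).trans ?_
  refine (sum_le_card_nsmul _ _ (125 * (C * ‖η‖ ^ 2)) fun i _ => ?_).trans ?_
  · refine (abs_sum_le_sum_abs _ _).trans ?_
    refine (sum_le_card_nsmul _ _ _ fun a _ => h1 i a).trans ?_
    rw [card_univ, card_Z3, nsmul_eq_mul]; norm_num
  · rw [card_univ, Fintype.card_fin, nsmul_eq_mul]; push_cast; linarith

variable {ω : Ultrafilter ℕ} {Ψ : ℕ → A → (H →L[ℂ] H)}

/-- the images of the generators -/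
def TT (Ψ : ℕ → A → (H →L[ℂ] H)) (u : GG →* unitary A) (n : ℕ) : Fin 3 → Z3 → H →L[ℂ] H :=
  fun i a => Ψ n (u (iota (gen i a)))

/-- level `k` almost occurs at stage `n` -/
def Good (Ψ : ℕ → A → (H →L[ℂ] H)) (u : GG →* unitary A) (n k : ℕ) : Prop :=
  ∃ η : Vec (Y k) H, 370 * ‖η‖ ^ 2 < QF k (TT Ψ u n) η

variable (hΨ : Asymp ω Ψ) (u : GG →* unitary A) (k : ℕ → ℕ)

theorem tendsto_QF {x : ∀ n, Vec (Y (k n)) H} (hx : Bdd x) :
    Tendsto (fun n => QF (k n) (TT Ψ u n) (x n)) ω (𝓝 (QQ (PiU hΨ u k) (UP.mk ω x))) := by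
  refine tendsto_finset_sum _ fun i _ => tendsto_finset_sum _ fun a _ => ?_
  refine (Complex.continuous_re.tendsto _).comp ?_
  have hb := bdd_PP (hΨ.bdd (u (iota (gen i a)))) k (gen i a)
  have h1 := UP.tendsto_inner (ω := ω) (hb.apply hx) hx
  rw [← UP.op_mk hb hx] at h1
  exact h1

include hΨ in
theorem exists_TT_bound : ∃ C : ℝ, 0 ≤ C ∧ ∀ n i a, ‖TT Ψ u n i a‖ ≤ C := by
  choose C hC using fun p : Fin 3 × Z3 => hΨ.bdd (u (iota (gen p.1 p.2)))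
  have h0 : ∀ p, 0 ≤ C p := fun p => (norm_nonneg _).trans (hC p 0)
  exact ⟨∑ p, C p, sum_nonneg fun p _ => h0 p, fun n i a =>
    (hC (i, a) n).trans (single_le_sum (fun p _ => h0 p) (mem_univ (i, a)))⟩

theorem good_of_fixed {ξ : UU ω H k} (hξ : ξ ≠ 0) (hf : ∀ g ∈ Lam, PiU hΨ u k g ξ = ξ) :
    ∀ᶠ n in (ω : Filter ℕ), Good Ψ u n (k n) := by
  obtain ⟨x, hx, rfl⟩ := UP.exists_mk ξ
  have h1 := tendsto_QF hΨ u k hx
  rw [QQ_of_fixed hf] at h1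
  have h2 := ((UP.tendsto_norm (ω := ω) hx).pow 2).const_mul 370
  have h3 : 0 < ‖UP.mk ω x‖ := norm_pos_iff.2 hξ
  filter_upwards [h2.eventually_lt h1 (by nlinarith [pow_pos h3 2])] with n hn
  exact ⟨x n, hn⟩

theorem fixed_of_good (hω : (ω : Filter ℕ) ≤ atTop)
    (hg : ∀ᶠ n in (ω : Filter ℕ), Good Ψ u n (k n)) :
    ∃ ξ : UU ω H k, ξ ≠ 0 ∧ ∀ g ∈ Lam, PiU hΨ u k g ξ = ξ := by
  obtain ⟨C, hC0, hC⟩ := exists_TT_bound hΨ u
  let S : ℕ → Set ℝ := fun n => {q | ∃ η : Vec (Y (k n)) H, ‖η‖ ≤ 1 ∧ q = QF (k n) (TT Ψ u n) η}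
  have hS : ∀ n, ∀ q ∈ S n, |q| ≤ 375 * C := by
    rintro n q ⟨η, h1, rfl⟩
    refine (abs_QF_le _ (hC n) η).trans ?_
    have : ‖η‖ ^ 2 ≤ 1 := pow_le_one₀ (norm_nonneg _) h1
    nlinarith
  have hb : ∀ n, BddAbove (S n) := fun n => ⟨375 * C, fun q hq => (le_abs_self q).trans (hS n q hq)⟩
  have h0 : ∀ n, (0 : ℝ) ∈ S n := fun n => ⟨0, by simp, by simp [QF]⟩
  let r : ℕ → ℝ := fun n => sSup (S n)
  have hr0 : ∀ n, 0 ≤ r n := fun n => le_csSup (hb n) (h0 n)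
  have hr1 : ∀ n, ‖r n‖ ≤ 375 * C := fun n => by
    rw [Real.norm_of_nonneg (hr0 n)]
    exact csSup_le ⟨0, h0 n⟩ fun q hq => (le_abs_self q).trans (hS n q hq)
  have hup : ∀ n η, QF (k n) (TT Ψ u n) η ≤ r n * ‖η‖ ^ 2 := by
    intro n η
    rcases eq_or_ne η 0 with rfl | hη
    · simp [QF]
    have hp : 0 < ‖η‖ := norm_pos_iff.2 hη
    have h1 : QF (k n) (TT Ψ u n) (((‖η‖⁻¹ : ℝ) : ℂ) • η) ≤ r n :=
      le_csSup (hb n) ⟨_, by
        rw [norm_smul, Complex.norm_real, norm_inv, norm_norm, inv_mul_cancel₀ hp.ne'], rfl⟩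
    rw [QF_smul, inv_pow, inv_mul_le_iff₀ (pow_pos hp 2)] at h1
    linarith
  have hex : ∀ n : ℕ, ∃ η : Vec (Y (k n)) H, ‖η‖ ≤ 1 ∧
      r n - 1 / ((n : ℝ) + 1) < QF (k n) (TT Ψ u n) η := by
    intro n
    obtain ⟨q, ⟨η, h1, rfl⟩, h2⟩ := exists_lt_of_lt_csSup ⟨0, h0 n⟩
      (show r n - 1 / ((n : ℝ) + 1) < sSup (S n) from sub_lt_self _ (by positivity))
    exact ⟨η, h1, h2⟩
  choose x hx1 hx2 using hex
  have hx : Bdd x := ⟨1, hx1⟩
  have hr := tendsto_ulim ω hr1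
  set ρ := ulim ω r
  have hρ : 370 ≤ ρ := by
    refine ge_of_tendsto hr ?_
    filter_upwards [hg] with n ⟨η, hη⟩
    have := hup n η
    by_contra hc
    push Not at hc
    nlinarith [sq_nonneg ‖η‖]
  have h1 : ρ ≤ QQ (PiU hΨ u k) (UP.mk ω x) := by
    have h2 := hr.sub (tendsto_one_div_add_atTop_nhds_zero_nat.mono_left hω)
    rw [sub_zero] at h2
    exact le_of_tendsto_of_tendsto' h2 (tendsto_QF hΨ u k hx) fun n => (hx2 n).le
  have h3 : ‖UP.mk ω x‖ ≤ 1 := le_of_tendsto' (UP.tendsto_norm hx) hx1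
  refine ⟨UP.mk ω x, fun h => ?_, fun g hg => ?_⟩
  · rw [h] at h1
    simp [QQ] at h1
    linarith
  · refine fixedC_of_rayleigh (isUni_PiU hΨ u k) (r := ρ) (by linarith) (fun v => ?_) ?_ hg
    · obtain ⟨y, hy, rfl⟩ := UP.exists_mk v
      exact le_of_tendsto_of_tendsto' (tendsto_QF hΨ u k hy)
        (hr.mul ((UP.tendsto_norm hy).pow 2)) fun n => hup n _
    · have : ‖UP.mk ω x‖ ^ 2 ≤ 1 := pow_le_one₀ (norm_nonneg _) h3
      nlinarith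

/-- the Markov element -/
def MM (u : GG →* unitary A) : A :=
  (375 : ℂ)⁻¹ • ∑ p : Fin 3 × Z3, (u (iota (gen p.1 p.2)) : A)

/-- the Cesaro means -/
def Ces (u : GG →* unitary A) (m : ℕ) : A :=
  ((m : ℂ) + 1)⁻¹ • ∑ j ∈ range (m + 1), MM u ^ j

theorem norm_one_le' : ‖(1 : A)‖ ≤ 1 := by
  rcases subsingleton_or_nontrivial A with h | h
  · rw [Subsingleton.elim (1 : A) 0]; simp
  · simp

theorem norm_unitary_le (a : unitary A) : ‖(a : A)‖ ≤ 1 := by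
  rw [← mul_one (a : A), CStarRing.norm_coe_unitary_mul]
  exact norm_one_le'

theorem norm_MM_le : ‖MM u‖ ≤ 1 := by
  rw [MM, norm_smul]
  have : ‖∑ p : Fin 3 × Z3, (u (iota (gen p.1 p.2)) : A)‖ ≤ 375 := by
    refine (norm_sum_le _ _).trans ((sum_le_card_nsmul _ _ 1 fun p _ => norm_unitary_le _).trans ?_)
    rw [card_univ, Fintype.card_prod, card_Z3]; norm_num
  rw [norm_inv, Complex.norm_ofNat]
  linarith [mul_le_mul_of_nonneg_left this (show (0 : ℝ) ≤ (375 : ℝ)⁻¹ by norm_num)]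

theorem norm_MM_pow_le (j : ℕ) : ‖MM u ^ j‖ ≤ 1 := by
  induction j with
  | zero => rw [pow_zero]; exact norm_one_le'
  | succ j ih =>
    rw [pow_succ]
    exact (norm_mul_le _ _).trans (mul_le_one₀ ih (norm_nonneg _) (norm_MM_le u))

theorem norm_natCast_add_one (m : ℕ) : ‖(m : ℂ) + 1‖ = (m : ℝ) + 1 := by
  rw [← Nat.cast_succ, Complex.norm_natCast, Nat.cast_succ]

theorem norm_Ces_le (m : ℕ) : ‖Ces u m‖ ≤ 1 := by
  rw [Ces, norm_smul, norm_inv, norm_natCast_add_one, inv_mul_le_iff₀ (by positivity)]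
  refine (norm_sum_le _ _).trans ((sum_le_card_nsmul _ _ 1 fun p _ => norm_MM_pow_le u _).trans ?_)
  simp

theorem norm_one_sub_MM_Ces (m : ℕ) : ‖(1 - MM u) * Ces u m‖ ≤ 2 / ((m : ℝ) + 1) := by
  rw [Ces, mul_smul_comm, mul_neg_geom_sum, norm_smul, norm_inv, norm_natCast_add_one,
    div_eq_inv_mul]
  refine mul_le_mul_of_nonneg_left ((norm_sub_le _ _).trans ?_) (by positivity)
  linarith [norm_one_le' (A := A), norm_MM_pow_le u (m + 1)]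

include hΨ in
theorem exists_norming (a : A) {c : ℝ} (hc : c < ‖a‖) :
    ∃ ξ : UU ω H (fun _ => 0), ‖ξ‖ ≤ 1 ∧ c ≤ ‖WW ω Ψ (fun _ => 0) 1 a ξ‖ := by
  have h1 : ∀ n, ∃ v : H, ‖v‖ ≤ 1 ∧ (c < ‖Ψ n a‖ → c < ‖Ψ n a v‖) := by
    intro n
    by_cases h : c < ‖Ψ n a‖
    · obtain ⟨v, h1, h2⟩ := (Ψ n a).exists_lt_apply_of_lt_opNorm h
      exact ⟨v, h1.le, fun _ => h2⟩
    · exact ⟨0, by simp, fun h' => absurd h' h⟩
  choose v hv1 hv2 using h1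
  have hn : ∀ w : Vec (Y 0) H, ‖w‖ = ‖w default‖ := fun w => by
    rw [PiLp.norm_eq_of_L2, Fintype.sum_unique, Real.sqrt_sq (norm_nonneg _)]
  let x : ∀ n : ℕ, Vec (Y ((fun _ => 0) n)) H := fun n => WithLp.toLp 2 fun _ => v n
  have hx1 : ∀ n, ‖x n‖ ≤ 1 := fun n => (hn (x n)).trans_le (hv1 n)
  have hx : Bdd x := ⟨1, hx1⟩
  have hb := bdd_PP (hΨ.bdd a) (fun _ => 0) 1
  refine ⟨UP.mk ω x, le_of_tendsto' (UP.tendsto_norm hx) hx1, ?_⟩
  have h2 := UP.tendsto_norm (ω := ω) (hb.apply hx)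
  rw [← UP.op_mk hb hx] at h2
  refine ge_of_tendsto h2 ?_
  filter_upwards [(hΨ.norm a).eventually (lt_mem_nhds hc)] with n hn'
  rw [hn]
  refine (hv2 n hn').le.trans (le_of_eq ?_)
  simp [PP, mono_apply, x]

theorem WW_zero_eq (g : LL) (a : A) :
    WW ω Ψ (fun _ => 0) g a = WW ω Ψ (fun _ => 0) 1 a := by
  simp only [WW, PP_zero_eq g]

theorem QQ_zero (ζ : UU ω H (fun _ => 0)) : 375 * ‖ζ‖ ^ 2 - QQ (PiU hΨ u fun _ => 0) ζ =
    375 * (⟪WW ω Ψ (fun _ => 0) 1 (1 - MM u) ζ, ζ⟫_ℂ).re := by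
  rw [WW_sub hΨ, WW_one hΨ, MM, WW_smul hΨ, WW_sum hΨ, inner_sub_left, inner_smul_left, sum_inner,
    Complex.sub_re, ← RCLike.re_to_complex, ← norm_sq_eq_re_inner, QQ, Fintype.sum_prod_type]
  have : conj (375 : ℂ)⁻¹ = ((375⁻¹ : ℝ) : ℂ) := by simp [map_ofNat]
  rw [this, Complex.re_ofReal_mul]
  simp only [PiU_apply, Complex.re_sum, WW_zero_eq (gen _ _)]
  ring

theorem exists_base (hω : (ω : Filter ℕ) ≤ atTop)
    (hA : ∀ m, 1 ≤ ‖(1 - (u gBase : A)) * Ces u m‖) :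
    ∃ η : UU ω H (fun _ => 0), (∀ g ∈ Lam, PiU hΨ u (fun _ => 0) g η = η) ∧
      WW ω Ψ (fun _ => 0) 1 (u gBase) η ≠ η := by
  have hb := bdd_PP (hΨ.bdd (u gBase)) (fun _ => 0) 1
  let P : ℕ → ℕ → Prop := fun m n => ∃ x : Vec (Y 0) H, ‖x‖ ≤ 2 ∧
    1 / 4 ≤ ‖x - PP 0 1 (Ψ n (u gBase)) x‖ ∧
    375 * ‖x‖ ^ 2 - QF 0 (TT Ψ u n) x ≤ 751 * (1 / ((m : ℝ) + 1))
  have key : ∀ {x : ∀ n : ℕ, Vec (Y ((fun _ => 0) n)) H}, Bdd x →
      Tendsto (fun n => ‖x n - PP 0 1 (Ψ n (u gBase)) (x n)‖) ω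
        (𝓝 ‖UP.mk ω x - WW ω Ψ (fun _ => 0) 1 (u gBase) (UP.mk ω x)‖) := by
    intro x hx
    have := UP.tendsto_norm (ω := ω) (hx.sub (hb.apply hx))
    rw [UP.mk_sub hx (hb.apply hx), ← UP.op_mk hb hx] at this
    exact this
  have hP : ∀ m, ∀ᶠ n in (ω : Filter ℕ), P m n := by
    intro m
    obtain ⟨ξ, h1, h2⟩ := exists_norming hΨ ((1 - (u gBase : A)) * Ces u m) (c := 1 / 2)
      (by linarith [hA m])
    obtain ⟨x, hx, e⟩ := UP.exists_mk (WW ω Ψ (fun _ => 0) 1 (Ces u m) ξ)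
    have h3 : ‖UP.mk ω x‖ ≤ 1 := by
      rw [← e]
      exact (norm_WW_le hΨ _ _ _ _).trans (mul_le_one₀ (norm_Ces_le u m) (norm_nonneg _) h1)
    have h4 : 1 / 2 ≤ ‖UP.mk ω x - WW ω Ψ (fun _ => 0) 1 (u gBase) (UP.mk ω x)‖ := by
      rw [← mul_one (1 : LL), ← WW_mul hΨ, WW_sub hΨ, WW_one hΨ, e] at h2
      exact h2
    have h5 : 375 * ‖UP.mk ω x‖ ^ 2 - QQ (PiU hΨ u fun _ => 0) (UP.mk ω x) ≤
        750 * (1 / ((m : ℝ) + 1)) := by
      rw [QQ_zero]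
      have h6 : ‖WW ω Ψ (fun _ => 0) 1 (1 - MM u) (UP.mk ω x)‖ ≤ 2 / ((m : ℝ) + 1) := by
        rw [← e, WW_mul hΨ]
        refine (norm_WW_le hΨ _ _ _ _).trans ?_
        refine (mul_le_of_le_one_right (norm_nonneg _) h1).trans (norm_one_sub_MM_Ces u m)
      have h7 := (Complex.re_le_norm _).trans (norm_inner_le_norm (𝕜 := ℂ)
        (WW ω Ψ (fun _ => 0) 1 (1 - MM u) (UP.mk ω x)) (UP.mk ω x))
      have h8 := h7.trans ((mul_le_of_le_one_right (norm_nonneg _) h3).trans h6)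
      rw [div_eq_mul_one_div] at h8
      linarith
    have h9 := (((UP.tendsto_norm (ω := ω) hx).pow 2).const_mul 375).sub
      (tendsto_QF hΨ u (fun _ => 0) hx)
    have hm : (0 : ℝ) < 1 / ((m : ℝ) + 1) := by positivity
    filter_upwards [(UP.tendsto_norm (ω := ω) hx).eventually (gt_mem_nhds (a := 2) (by linarith)),
      (key hx).eventually (lt_mem_nhds (a := 1 / 4) (by linarith)),
      h9.eventually (gt_mem_nhds (a := 751 * (1 / ((m : ℝ) + 1))) (by linarith))] with n a1 a2 a3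
    exact ⟨x n, a1.le, a2.le, a3.le⟩
  obtain ⟨m, hm1, hm2⟩ := exists_diag hω hP
  have hex : ∀ n, ∃ x : Vec (Y 0) H, ‖x‖ ≤ 2 ∧ (P (m n) n →
      1 / 4 ≤ ‖x - PP 0 1 (Ψ n (u gBase)) x‖ ∧
      375 * ‖x‖ ^ 2 - QF 0 (TT Ψ u n) x ≤ 751 * (1 / ((m n : ℝ) + 1))) := by
    intro n
    by_cases h : P (m n) n
    · obtain ⟨x, h1, h2⟩ := h
      exact ⟨x, h1, fun _ => h2⟩
    · exact ⟨0, by simp, fun h' => absurd h' h⟩
  choose x hx1 hx2 using hex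
  have hx : Bdd (E := fun n : ℕ => Vec (Y ((fun _ => 0) n)) H) x := ⟨2, hx1⟩
  refine ⟨UP.mk ω x, fun g hg => fixedC_of_top (isUni_PiU hΨ u _) ?_ hg, fun h => ?_⟩
  · have h9 := (((UP.tendsto_norm (ω := ω) hx).pow 2).const_mul 375).sub
      (tendsto_QF hΨ u (fun _ => 0) hx)
    have h10 := (tendsto_one_div_add_atTop_nhds_zero_nat.comp hm1).const_mul (751 : ℝ)
    have := le_of_tendsto_of_tendsto h9 h10 (by
      filter_upwards [hm2] with n hn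
      exact (hx2 n hn).2)
    linarith
  · have h1 := key hx
    rw [h, sub_self, norm_zero] at h1
    have := ge_of_tendsto h1 (by
      filter_upwards [hm2] with n hn
      exact (hx2 n hn).1)
    linarith

include hΨ in
theorem main_contradiction (hω : (ω : Filter ℕ) ≤ atTop)
    (hA : ∀ m, 1 ≤ ‖(1 - (u gBase : A)) * Ces u m‖)
    (hfin : ∀ᶠ n in (ω : Filter ℕ), ∃ K, ∀ k ≥ K, ¬ Good Ψ u n k) : False := by
  obtain ⟨η, h1, h2⟩ := exists_base hΨ u hω hA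
  have h3 := good_of_fixed hΨ u _ (indVec_ne_zero_base hΨ u h2)
    (fun g hg => indVec_fixed hΨ u _ h1 hg)
  have hex : ∀ n, ∃ j : ℕ, Good Ψ u n 1 → (∃ K, ∀ k ≥ K, ¬ Good Ψ u n k) →
      Good Ψ u n (j + 1) ∧ ¬ Good Ψ u n (j + 1 + 1) := by
    intro n
    by_contra hc
    push Not at hc
    obtain ⟨g1, ⟨K, hK⟩, -⟩ := hc 0
    have : ∀ j, Good Ψ u n (j + 1) := by
      intro j
      induction j with
      | zero => exact g1
      | succ j ih => exact (hc j).2.2 ih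
    exact hK (K + 1) (by omega) (this K)
  choose j hj using hex
  obtain ⟨ξ, h4, h5⟩ := fixed_of_good hΨ u (fun n => j n + 1) hω (by
    filter_upwards [h3, hfin] with n a1 a2
    exact (hj n a1 a2).1)
  have h6 := good_of_fixed hΨ u _ (indVec_ne_zero_succ hΨ u _ (fun n => by omega) h4)
    (fun g hg => indVec_fixed hΨ u _ h5 hg)
  obtain ⟨n, a1, a2, a3⟩ := (h3.and (hfin.and h6)).exists
  exact (hj n a1 a2).2 a3

end Crest.Agent.R73
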