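import Mathlib

/-!
Trace inequalities for matrices.
-/

set_option autoImplicit false
set_option linter.unusedSectionVars false

noncomputable section

namespace Crest.Agent.R73

open Matrix Finset
open scoped ComplexOrder MatrixOrder

variable {I J : Type} [Fintype I] [Fintype J] [DecidableEq I] [DecidableEq J]

theorem re_nonneg_of_nonneg {z : ℂ} (h : 0 ≤ z) : 0 ≤ z.re := (Complex.nonneg_iff.1 h).1

theorem trace_mul_nonneg {P Q : Matrix I I ℂ} (hP : P.PosSemidef) (hQ : Q.PosSemidef) :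
    0 ≤ (P * Q).trace.re := by
  obtain ⟨B, rfl⟩ := CStarAlgebra.nonneg_iff_eq_star_mul_self.mp hP.nonneg
  rw [star_eq_conjTranspose, Matrix.mul_assoc, trace_mul_comm]
  exact re_nonneg_of_nonneg (hQ.mul_mul_conjTranspose_same B).trace_nonneg

theorem trace_fromBlocks' (A : Matrix I I ℂ) (B : Matrix I J ℂ) (C : Matrix J I ℂ)
    (D : Matrix J J ℂ) : (fromBlocks A B C D).trace = A.trace + D.trace := by
  simp [trace, Fintype.sum_sum_type]

theorem posSemidef_fromBlocks_diag {A : Matrix I I ℂ} {D : Matrix J J ℂ} (hA : A.PosSemidef)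
    (hD : D.PosSemidef) : (fromBlocks A 0 0 D).PosSemidef := by
  obtain ⟨B, rfl⟩ := CStarAlgebra.nonneg_iff_eq_star_mul_self.mp hA.nonneg
  obtain ⟨C, rfl⟩ := CStarAlgebra.nonneg_iff_eq_star_mul_self.mp hD.nonneg
  have := posSemidef_conjTranspose_mul_self (fromBlocks B 0 0 C)
  simpa [fromBlocks_conjTranspose, fromBlocks_multiply, star_eq_conjTranspose] using this

theorem posSemidef_add_sub {A X : Matrix I I ℂ} (hA : A.PosSemidef) (hX : X.IsHermitian)
    (h : A * A = X * X) : (A + X).PosSemidef ∧ (A - X).PosSemidef := by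
  have hX' : IsSelfAdjoint X := hX
  have h1 : CFC.abs X = A := by
    rw [CFC.abs, hX'.star_eq]
    exact CFC.sqrt_unique h hA.nonneg
  rw [← h1, CFC.abs_add_self X, CFC.abs_sub_self X, two_smul, two_smul]
  exact ⟨(CFC.posPart_nonneg X).posSemidef.add (CFC.posPart_nonneg X).posSemidef,
    (CFC.negPart_nonneg X).posSemidef.add (CFC.negPart_nonneg X).posSemidef⟩

theorem trace_abs_ineq {A X : Matrix I I ℂ} (hA : A.PosSemidef) (hX : X.IsHermitian)
    (h : A * A = X * X) (C : Matrix I I ℂ) :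
    (X * C * X * Cᴴ).trace.re ≤ (A * C * A * Cᴴ).trace.re := by
  obtain ⟨hp, hm⟩ := posSemidef_add_sub hA hX h
  have h1 := trace_mul_nonneg hp (hm.mul_mul_conjTranspose_same C)
  have h2 := trace_mul_nonneg hm (hp.mul_mul_conjTranspose_same C)
  simp only [Matrix.mul_add, Matrix.add_mul, Matrix.mul_sub, Matrix.sub_mul, trace_add, trace_sub,
    Complex.add_re, Complex.sub_re, ← Matrix.mul_assoc] at h1 h2
  linarith

theorem re_trace_conjTranspose (M : Matrix I I ℂ) : (Mᴴ).trace.re = M.trace.re := by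
  rw [trace_conjTranspose]; rfl

theorem haagerup {T : Matrix I J ℂ} {D' : Matrix I I ℂ} {D : Matrix J J ℂ} (hD' : D'.PosSemidef)
    (hD : D.PosSemidef) (h' : D' * D' = T * Tᴴ) (h : D * D = Tᴴ * T)
    (a : Matrix I I ℂ) (R : Matrix J J ℂ) :
    2 * (Tᴴ * a * T * R).trace.re ≤ (D' * a * D' * aᴴ).trace.re + (D * Rᴴ * D * R).trace.re := by
  have key := trace_abs_ineq (A := fromBlocks D' 0 0 D) (X := fromBlocks 0 T Tᴴ 0)
    (posSemidef_fromBlocks_diag hD' hD) (by simp [IsHermitian, fromBlocks_conjTranspose])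
    (by simp [fromBlocks_multiply, h, h']) (fromBlocks a 0 0 Rᴴ)
  simp only [fromBlocks_conjTranspose, fromBlocks_multiply, conjTranspose_zero,
    conjTranspose_conjTranspose, Matrix.zero_mul, Matrix.mul_zero, add_zero, zero_add,
    trace_fromBlocks', Complex.add_re] at key
  have e : (T * Rᴴ * Tᴴ * aᴴ).trace.re = (Tᴴ * a * T * R).trace.re := by
    rw [← re_trace_conjTranspose]
    simp only [conjTranspose_mul, conjTranspose_conjTranspose, ← Matrix.mul_assoc]
    rw [trace_mul_comm]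
    simp only [Matrix.mul_assoc]
  linarith

theorem trace_contr {D a : Matrix I I ℂ} (hD : D.IsHermitian) {C : ℝ}
    (h1 : ((C : ℂ) • (1 : Matrix I I ℂ) - aᴴ * a).PosSemidef)
    (h2 : ((C : ℂ) • (1 : Matrix I I ℂ) - a * aᴴ).PosSemidef) :
    (D * a * D * aᴴ).trace.re ≤ C * (D * D).trace.re := by
  have k0 := re_nonneg_of_nonneg (posSemidef_conjTranspose_mul_self (a * D - D * a)).trace_nonneg
  have k1 := re_nonneg_of_nonneg (h1.mul_mul_conjTranspose_same D).trace_nonneg
  have k2 := re_nonneg_of_nonneg (h2.mul_mul_conjTranspose_same D).trace_nonneg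
  simp only [conjTranspose_sub, conjTranspose_mul, hD.eq, Matrix.mul_sub, Matrix.sub_mul,
    trace_sub, Complex.sub_re, ← Matrix.mul_assoc, Matrix.mul_smul, Matrix.smul_mul,
    Matrix.mul_one, trace_smul, smul_eq_mul, Complex.re_ofReal_mul] at k0 k1 k2
  have e1 : (aᴴ * D * a * D).trace = (D * a * D * aᴴ).trace := by
    conv_rhs => rw [trace_mul_comm]
    simp only [Matrix.mul_assoc]
  have e2 : (D * aᴴ * D * a).trace = (D * a * D * aᴴ).trace := by
    rw [Matrix.mul_assoc (D * aᴴ), trace_mul_comm]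
    simp only [Matrix.mul_assoc]
  have e3 : (aᴴ * D * D * a).trace = (D * a * aᴴ * D).trace := by
    rw [Matrix.mul_assoc (aᴴ * D), trace_mul_comm]
    simp only [Matrix.mul_assoc]
  rw [e1, e2, e3] at k0
  linarith

theorem trace_sq_le_rank {D : Matrix J J ℂ} (hD : D.IsHermitian) :
    D.trace.re ^ 2 ≤ D.rank * (D * D).trace.re := by
  have e1 : D.trace.re = ∑ i, hD.eigenvalues i := by
    rw [hD.trace_eq_sum_eigenvalues, Complex.re_sum]; simp
  have e2 : (D * D).trace.re = ∑ i, hD.eigenvalues i ^ 2 := by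
    conv_lhs => rw [hD.spectral_theorem]
    rw [← map_mul, Unitary.conjStarAlgAut_apply, trace_mul_comm, ← Matrix.mul_assoc,
      Unitary.coe_star_mul_self, Matrix.one_mul, diagonal_mul_diagonal, trace_diagonal,
      Complex.re_sum]
    simp [sq]
  rw [e1, e2, hD.rank_eq_card_non_zero_eigs, Fintype.card_subtype,
    ← sum_filter_ne_zero univ (f := fun i => hD.eigenvalues i)]
  refine sq_sum_le_card_mul_sum_sq.trans ?_
  refine mul_le_mul_of_nonneg_left ?_ (Nat.cast_nonneg _)
  exact sum_le_sum_of_subset_of_nonneg (filter_subset _ _) fun _ _ _ => sq_nonneg _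

theorem exists_abs (T : Matrix I J ℂ) : ∃ D : Matrix J J ℂ, D.PosSemidef ∧ D * D = Tᴴ * T ∧
    D.trace.re ^ 2 ≤ Fintype.card I * (Tᴴ * T).trace.re := by
  have hp := (posSemidef_conjTranspose_mul_self T).nonneg
  have h1 := (CFC.sqrt_nonneg (Tᴴ * T)).posSemidef
  have h2 := CFC.sqrt_mul_sqrt_self (Tᴴ * T) hp
  refine ⟨CFC.sqrt (Tᴴ * T), h1, h2, ?_⟩
  have h3 := trace_sq_le_rank h1.1
  rw [h2] at h3
  refine h3.trans (mul_le_mul_of_nonneg_right ?_ (re_nonneg_of_nonneg hp.posSemidef.trace_nonneg))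
  have : (CFC.sqrt (Tᴴ * T)).rank = T.rank := by
    rw [← rank_conjTranspose_mul_self, h1.1.eq, h2, rank_conjTranspose_mul_self]
  rw [this]
  exact_mod_cast rank_le_card_height T

end Crest.Agent.R73
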