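import Crest.Agent.R73.Mono
import Crest.Agent.R73.Matr

/-!
Contractions of bounded size cannot almost intertwine high levels.
-/

set_option autoImplicit false
set_option linter.unusedSectionVars false

noncomputable section

namespace Crest.Agent.R73

open Matrix Finset
open scoped ComplexOrder MatrixOrder InnerProductSpace ComplexConjugate

/-- the monomial matrix of `g` -/
def RM (k : ℕ) (g : LL) : Matrix (Y k) (Y k) ℂ :=
  fun ψ χ => if ψ = actY g.A χ then conj (χ.1 g.v) else 0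

theorem mul_RM {I : Type} (k : ℕ) (g : LL) (M : Matrix I (Y k) ℂ) (i : I) (χ : Y k) :
    (M * RM k g) i χ = M i (actY g.A χ) * conj (χ.1 g.v) := by
  simp [Matrix.mul_apply, RM]

theorem RM_mul {I : Type} (k : ℕ) (g : LL) (M : Matrix (Y k) I ℂ) (i : I) (χ : Y k) :
    ((RM k g)ᴴ * M) χ i = χ.1 g.v * M (actY g.A χ) i := by
  simp [Matrix.mul_apply, RM, apply_ite]

/-- the conjugation operators on matrices -/
def HSop (k : ℕ) (g : LL) : Vec (Y k × Y k) ℂ →L[ℂ] Vec (Y k × Y k) ℂ :=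
  mono (fun p => p.1.1 g.v * conj (p.2.1 g.v)) (fun p => (actY g.A p.1, actY g.A p.2)) 1

theorem HSop_apply (k : ℕ) (g : LL) (x : Vec (Y k × Y k) ℂ) (p : Y k × Y k) :
    HSop k g x p = p.1.1 g.v * conj (p.2.1 g.v) * x (actY g.A p.1, actY g.A p.2) := rfl

/-- the conjugation representation -/
def HS (k : ℕ) : LL →* (Vec (Y k × Y k) ℂ →ₗ[ℂ] Vec (Y k × Y k) ℂ) where
  toFun g := (HSop k g).toLinearMap
  map_one' := by
    refine LinearMap.ext fun x => PiLp.ext fun p => ?_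
    change HSop k 1 x p = x p
    rw [HSop_apply]
    simp [actY_one]
  map_mul' g h := by
    refine LinearMap.ext fun x => PiLp.ext fun p => ?_
    change HSop k (g * h) x p = HSop k g (HSop k h x) p
    rw [HSop_apply, HSop_apply, HSop_apply, Aff.mul_v, Aff.mul_A, AddChar.map_add_eq_mul,
      AddChar.map_add_eq_mul, map_mul, actY_mul, actY_mul]
    change _ = _ * (p.1.1 (_ *ᵥ h.v) * conj (p.2.1 (_ *ᵥ h.v)) * _)
    ring

theorem HS_apply (k : ℕ) (g : LL) (x : Vec (Y k × Y k) ℂ) (p : Y k × Y k) :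
    HS k g x p = p.1.1 g.v * conj (p.2.1 g.v) * x (actY g.A p.1, actY g.A p.2) := rfl

theorem isUni_HS (k : ℕ) : IsUni (HS k) := by
  intro g v w
  rw [PiLp.inner_apply, PiLp.inner_apply]
  refine Fintype.sum_equiv ((actE g.A).prodCongr (actE g.A)) _ _ fun p => ?_
  rw [HS_apply, HS_apply]
  change _ = ⟪v (actY g.A p.1, actY g.A p.2), w (actY g.A p.1, actY g.A p.2)⟫_ℂ
  simp only [RCLike.inner_apply, map_mul, Complex.conj_conj]
  linear_combination (w (actY g.A p.1, actY g.A p.2) * conj (v (actY g.A p.1, actY g.A p.2)) *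
      (conj (p.2.1 g.v) * p.2.1 g.v)) * conj_mul_ch p.1.1 g.v +
    (w (actY g.A p.1, actY g.A p.2) * conj (v (actY g.A p.1, actY g.A p.2))) *
      conj_mul_ch p.2.1 g.v

/-- a matrix as a vector -/
def toVec {J : Type} (D : Matrix J J ℂ) : Vec (J × J) ℂ := WithLp.toLp 2 fun p => D p.1 p.2

theorem inner_HS_toVec (k : ℕ) (g : LL) {D : Matrix (Y k) (Y k) ℂ} (hD : D.IsHermitian) :
    ⟪HS k g (toVec D), toVec D⟫_ℂ = (D * (RM k g)ᴴ * D * RM k g).trace := by
  rw [PiLp.inner_apply, Fintype.sum_prod_type, Matrix.mul_assoc, Matrix.mul_assoc, trace]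
  refine sum_congr rfl fun χ _ => ?_
  rw [diag_apply, Matrix.mul_apply]
  refine sum_congr rfl fun ψ _ => ?_
  rw [RM_mul, mul_RM, HS_apply, ← hD.apply (actY g.A ψ)]
  simp only [RCLike.inner_apply, map_mul, Complex.conj_conj, toVec, RCLike.star_def]
  ring

theorem norm_toVec_sq {J : Type} [Fintype J] {D : Matrix J J ℂ} (hD : D.IsHermitian) :
    ‖toVec D‖ ^ 2 = (D * D).trace.re := by
  rw [@norm_sq_eq_re_inner ℂ, PiLp.inner_apply, Fintype.sum_prod_type, trace,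
    RCLike.re_to_complex]
  congr 1
  refine sum_congr rfl fun χ _ => ?_
  rw [diag_apply, Matrix.mul_apply]
  refine sum_congr rfl fun ψ _ => ?_
  rw [← hD.apply ψ]
  simp only [RCLike.inner_apply, toVec, RCLike.star_def]

theorem fixed_small {k : ℕ} {D : Matrix (Y k) (Y k) ℂ} (hD : D.PosSemidef)
    {v : Vec (Y k × Y k) ℂ} (hv : ∀ g ∈ Lam, HS k g v = v)
    (h : (⟪toVec D, v⟫_ℂ).re = ‖v‖ ^ 2) : k * ‖v‖ ^ 2 ≤ D.trace.re ^ 2 := by
  have hoff : ∀ χ ψ : Y k, χ ≠ ψ → v (χ, ψ) = 0 := by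
    intro χ ψ hne
    by_contra h0
    apply hne
    refine Subtype.ext (AddChar.ext _ _ fun w => ?_)
    have h1 := congrArg (fun x : Vec (Y k × Y k) ℂ => x (χ, ψ)) (hv _ (tr_mem gen_mem_Lam w))
    simp only [HS_apply, Aff.tr_v, Aff.tr_A, actY_one] at h1
    have h2 : χ.1 w * conj (ψ.1 w) = 1 := by
      apply mul_right_cancel₀ h0
      rw [h1, one_mul]
    linear_combination (ψ.1 w) * h2 - χ.1 w * conj_mul_ch ψ.1 w
  have hinv : ∀ i j h r (ψ : Y k),
      ‖v (actY (el i j h r) ψ, actY (el i j h r) ψ)‖ ^ 2 = ‖v (ψ, ψ)‖ ^ 2 := by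
    intro i j h r ψ
    have h1 := congrArg (fun x : Vec (Y k × Y k) ℂ => x (ψ, ψ))
      (hv _ (el_mem gen_mem_Lam i j h r))
    simp only [HS_apply, Aff.lin_v, Aff.lin_A, AddChar.map_zero_eq_one, map_one, one_mul] at h1
    rw [h1]
  have hdiag : ∑ ψ : Y k, ‖v (ψ, ψ)‖ ^ 2 ≤ ‖v‖ ^ 2 := by
    rw [PiLp.norm_sq_eq_of_L2, Fintype.sum_prod_type]
    exact sum_le_sum fun ψ _ => single_le_sum (f := fun χ => ‖v (ψ, χ)‖ ^ 2)
      (fun _ _ => sq_nonneg _) (mem_univ ψ)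
  have hb : ∀ χ : Y k, √k * ‖v (χ, χ)‖ ≤ ‖v‖ := by
    intro χ
    refine le_of_sq_le_sq ?_ (norm_nonneg _)
    rw [mul_pow, Real.sq_sqrt (Nat.cast_nonneg _)]
    exact (orbit_large χ (fun ψ => ‖v (ψ, ψ)‖ ^ 2) (fun _ => sq_nonneg _) hinv).trans hdiag
  have hD0 : ∀ χ, ‖D χ χ‖ = (D χ χ).re := fun χ => by
    have := hD.diag_nonneg (i := χ)
    exact (Complex.re_eq_norm.2 this).symm
  have h3 : ‖v‖ ^ 2 ≤ ∑ χ, (D χ χ).re * ‖v (χ, χ)‖ := by
    rw [← h, PiLp.inner_apply, Fintype.sum_prod_type, Complex.re_sum]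
    refine sum_le_sum fun χ _ => ?_
    rw [sum_eq_single χ (fun ψ _ hne => by rw [hoff χ ψ hne.symm, inner_zero_right]) (by simp),
      ← hD0]
    exact (Complex.re_le_norm _).trans (norm_inner_le_norm _ _)
  have htr : D.trace.re = ∑ χ, (D χ χ).re := by rw [trace, Complex.re_sum]; rfl
  have htr0 : 0 ≤ D.trace.re := re_nonneg_of_nonneg hD.trace_nonneg
  have h4 : √k * ‖v‖ ^ 2 ≤ D.trace.re * ‖v‖ := by
    refine (mul_le_mul_of_nonneg_left h3 (Real.sqrt_nonneg _)).trans ?_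
    rw [htr, mul_sum, sum_mul]
    refine sum_le_sum fun χ _ => ?_
    rw [mul_left_comm]
    exact mul_le_mul_of_nonneg_left (hb χ) (by rw [← hD0]; exact norm_nonneg _)
  have h5 : √k * ‖v‖ ≤ D.trace.re := by
    rcases (norm_nonneg v).eq_or_lt with h0 | h0
    · rw [← h0, mul_zero]; exact htr0
    · refine le_of_mul_le_mul_right ?_ h0
      rw [mul_assoc, ← sq]; exact h4
  have h6 := pow_le_pow_left₀ (by positivity) h5 2
  rwa [mul_pow, Real.sq_sqrt (Nat.cast_nonneg _)] at h6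

theorem scalar_bound {I : Type} [Fintype I] [DecidableEq I] {k : ℕ} (hk : 100 * Fintype.card I < k)
    (a : Fin 3 → Z3 → Matrix I I ℂ) {C : ℝ}
    (h1 : ∀ i c, ((C : ℂ) • (1 : Matrix I I ℂ) - (a i c)ᴴ * a i c).PosSemidef)
    (h2 : ∀ i c, ((C : ℂ) • (1 : Matrix I I ℂ) - a i c * (a i c)ᴴ).PosSemidef)
    (T : Matrix I (Y k) ℂ) :
    ∑ i, ∑ c, (Tᴴ * a i c * T * RM k (gen i c)).trace.re ≤
      (375 * C + 363) / 2 * (Tᴴ * T).trace.re := by
  obtain ⟨D, hD, eD, hr⟩ := exists_abs T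
  obtain ⟨D', hD', eD', -⟩ := exists_abs Tᴴ
  rw [conjTranspose_conjTranspose] at eD'
  set τ := (Tᴴ * T).trace.re with hτ
  have hτ0 : 0 ≤ τ := re_nonneg_of_nonneg (posSemidef_conjTranspose_mul_self T).trace_nonneg
  have e1 : (D' * D').trace.re = τ := by rw [eD', trace_mul_comm]
  have k1 : ∀ i c, 2 * (Tᴴ * a i c * T * RM k (gen i c)).trace.re ≤
      C * τ + (⟪HS k (gen i c) (toVec D), toVec D⟫_ℂ).re := by
    intro i c
    rw [inner_HS_toVec k _ hD.1, ← e1]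
    linarith [haagerup hD' hD eD' eD (a i c) (RM k (gen i c)), trace_contr hD'.1 (h1 i c) (h2 i c)]
  obtain ⟨v, hv, hv1, hv2⟩ := exists_fixedC_part (isUni_HS k) (toVec D)
  have k2 := (fixed_small hD hv hv1).trans hr
  rw [norm_toVec_sq hD.1, eD, ← hτ] at hv2
  have k3 : 100 * ‖v‖ ^ 2 ≤ τ := by
    have hk' : 100 * (Fintype.card I : ℝ) + 1 ≤ k := by exact_mod_cast hk
    have hN : (0 : ℝ) ≤ Fintype.card I := Nat.cast_nonneg _
    by_contra hc
    push Not at hc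
    nlinarith [sq_nonneg ‖v‖]
  have k4 : 2 * ∑ i, ∑ c, (Tᴴ * a i c * T * RM k (gen i c)).trace.re ≤
      375 * (C * τ) + QQ (HS k) (toVec D) := by
    have := sum_le_sum (s := univ) fun i _ => sum_le_sum (s := univ) fun c _ => k1 i c
    simp only [← mul_sum, sum_add_distrib, sum_const, card_univ, card_Z3, Fintype.card_fin,
      nsmul_eq_mul] at this
    rw [QQ]
    push_cast at this
    linarith
  nlinarith

theorem exists_coords {H : Type} [NormedAddCommGroup H] [InnerProductSpace ℂ H] {P : Type}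
    [Fintype P] (h : P → H) : ∃ (m : ℕ) (t : Fin m → P → ℂ),
      ∀ p q, ⟪h p, h q⟫_ℂ = ∑ j, conj (t j p) * t j q := by
  let F : Submodule ℂ H := Submodule.span ℂ (Set.range h)
  have : FiniteDimensional ℂ F := FiniteDimensional.span_of_finite ℂ (Set.finite_range h)
  let b := stdOrthonormalBasis ℂ F
  let h' : P → F := fun p => ⟨h p, Submodule.subset_span ⟨p, rfl⟩⟩
  refine ⟨_, fun j p => ⟪b j, h' p⟫_ℂ, fun p q => ?_⟩
  simp only [inner_conj_symm]
  exact (b.sum_inner_mul_inner (h' p) (h' q)).symm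

theorem vector_bound {H : Type} [NormedAddCommGroup H] [InnerProductSpace ℂ H]
    {I : Type} [Fintype I] [DecidableEq I] {k : ℕ} (hk : 100 * Fintype.card I < k)
    (a : Fin 3 → Z3 → Matrix I I ℂ) {C : ℝ}
    (h1 : ∀ i c, ((C : ℂ) • (1 : Matrix I I ℂ) - (a i c)ᴴ * a i c).PosSemidef)
    (h2 : ∀ i c, ((C : ℂ) • (1 : Matrix I I ℂ) - a i c * (a i c)ᴴ).PosSemidef)
    (h : I × Y k → H) :
    ∑ i, ∑ c, (∑ χ : Y k, ∑ μ, ∑ ν, conj (χ.1 (gen i c).v) * a i c μ ν *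
        ⟪h (μ, χ), h (ν, actY (gen i c).A χ)⟫_ℂ).re ≤
      (375 * C + 363) / 2 * ∑ p, ‖h p‖ ^ 2 := by
  obtain ⟨m, t, ht⟩ := exists_coords h
  obtain ⟨T, hT⟩ : ∃ T : Fin m → Matrix I (Y k) ℂ, ∀ j μ χ, T j μ χ = t j (μ, χ) :=
    ⟨fun j μ χ => t j (μ, χ), fun _ _ _ => rfl⟩
  have e1 : ∑ p, ‖h p‖ ^ 2 = ∑ j, ((T j)ᴴ * T j).trace.re := by
    simp only [@norm_sq_eq_re_inner ℂ, ht, RCLike.re_to_complex, ← Complex.re_sum]
    congr 1
    rw [sum_comm]
    refine sum_congr rfl fun j _ => ?_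
    rw [Fintype.sum_prod_type, sum_comm, trace]
    simp only [diag_apply, Matrix.mul_apply, conjTranspose_apply, hT, RCLike.star_def]
  have e2 : ∀ i c, ∑ χ : Y k, ∑ μ, ∑ ν, conj (χ.1 (gen i c).v) * a i c μ ν *
        ⟪h (μ, χ), h (ν, actY (gen i c).A χ)⟫_ℂ =
      ∑ j, ((T j)ᴴ * a i c * T j * RM k (gen i c)).trace := by
    intro i c
    simp only [ht, mul_sum, trace, diag_apply, mul_RM]
    simp only [Matrix.mul_apply, sum_mul, conjTranspose_apply, hT, RCLike.star_def]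
    conv_rhs => rw [sum_comm]
    refine sum_congr rfl fun χ _ => ?_
    conv_lhs => rw [sum_comm]
    conv_rhs => rw [sum_comm]
    refine sum_congr rfl fun ν _ => ?_
    conv_rhs => rw [sum_comm]
    refine sum_congr rfl fun μ _ => sum_congr rfl fun j _ => ?_
    ring
  simp only [e2, Complex.re_sum]
  rw [e1, mul_sum]
  calc ∑ i, ∑ c, ∑ j, ((T j)ᴴ * a i c * T j * RM k (gen i c)).trace.re
      = ∑ j, ∑ i, ∑ c, ((T j)ᴴ * a i c * T j * RM k (gen i c)).trace.re := by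
        conv_rhs => rw [sum_comm]
        exact sum_congr rfl fun i _ => sum_comm
    _ ≤ _ := sum_le_sum fun j _ => scalar_bound hk a h1 h2 (T j)

end Crest.Agent.R73
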