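import Crest.Agent.R73.Cuntz
import Crest.Agent.R73.Scalar
import Crest.Agent.R73.Main

/-!
Convergence of the approximation and finiteness of the set of levels that almost occur.
-/

set_option autoImplicit false
set_option linter.unusedSectionVars false

noncomputable section

namespace Crest.Agent.R73

open Finset Filter Topology Matrix
open scoped InnerProductSpace ComplexConjugate ComplexOrder MatrixOrder

variable {O : Type} [CStarAlgebra O] {s : Bool → O} {π : O →⋆ₐ[ℂ] (HH →L[ℂ] HH)}

theorem count_bound (m a b : ℕ) :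
    ∃ c : ℕ, c ≤ m ∧ m ≤ c + (a + b) ∧ ∀ {M : Type} [AddCommMonoid M] (x : M),
      ∑ i : Fin m, ∑ j : Fin m, (if (i : ℕ) + b = j + a then x else 0) = c • x := by
  let S := univ.filter fun i : Fin m => a ≤ (i : ℕ) + b ∧ (i : ℕ) + b < m + a
  refine ⟨S.card, (card_le_univ S).trans (by simp), ?_, fun x => ?_⟩
  · have h1 : (univ : Finset (Fin m)) ⊆ S ∪ (univ.filter (fun i : Fin m => (i : ℕ) < a) ∪
        univ.filter (fun i : Fin m => ((i.rev : Fin m) : ℕ) < b)) := by
      intro i _
      have := i.2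
      simp only [S, mem_union, mem_filter, mem_univ, true_and, Fin.val_rev]
      omega
    have h2 : ∀ (f : Fin m → Fin m), Function.Injective f → ∀ d : ℕ,
        (univ.filter (fun i : Fin m => (f i : ℕ) < d)).card ≤ d := by
      intro f hf d
      conv_rhs => rw [← card_range d]
      refine card_le_card_of_injOn (fun i => (f i : ℕ)) (fun i hi => ?_) fun i _ j _ e => ?_
      · simpa using hi
      · exact hf (Fin.ext e)
    have h3 := card_le_card h1
    rw [card_univ, Fintype.card_fin] at h3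
    exact h3.trans ((card_union_le _ _).trans (Nat.add_le_add_left ((card_union_le _ _).trans
      (Nat.add_le_add (h2 id Function.injective_id a) (h2 Fin.rev Fin.rev_injective b))) _))
  · rw [← sum_const, sum_filter]
    refine sum_congr rfl fun i _ => ?_
    split_ifs with h
    · rw [sum_eq_single (⟨i + b - a, by omega⟩ : Fin m)]
      · rw [if_pos]; simp only; omega
      · intro j _ hj
        rw [if_neg]
        intro e
        apply hj
        ext; simp only; omega
      · simp
    · refine sum_eq_zero fun j _ => if_neg ?_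
      have := j.2
      omega

theorem CuntzData.tendsto_Fm_sw (h : CuntzData s π) (a b : ℕ) (α : Wd a) (β : Wd b) :
    Tendsto (fun m => Fm s π m (sw s a α * star (sw s b β))) atTop
      (𝓝 (sw s a α * star (sw s b β))) := by
  set x := sw s a α * star (sw s b β) with hx
  rw [tendsto_iff_norm_sub_tendsto_zero]
  refine squeeze_zero' (Eventually.of_forall fun _ => norm_nonneg _)
    (g := fun m : ℕ => ((a + b) * ‖x‖) / (m : ℝ)) ?_ (tendsto_const_div_atTop_nhds_zero_nat _)
  filter_upwards [eventually_ge_atTop (a + b + 1)] with m hm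
  obtain ⟨c, hc1, hc2, hc3⟩ := count_bound m a b
  have e : psi s (phi π m x) = c • x := by
    rw [psi_phi, ← hc3]
    refine sum_congr rfl fun i _ => sum_congr rfl fun j _ => ?_
    have e1 : m + i = (m + i - a) + a := by omega
    have e2 : m + j = (m + j - b) + b := by omega
    rw [e1, e2, hx, h.Th_sw]
    exact if_congr (by omega) rfl rfl
  have hm0 : (0 : ℝ) < m := by exact_mod_cast (by omega : 0 < m)
  have e2 : Fm s π m x - x = ((((c : ℝ) - m) / m : ℝ) : ℂ) • x := by
    rw [Fm, e, ← Nat.cast_smul_eq_nsmul ℂ, smul_smul]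
    nth_rewrite 2 [← one_smul ℂ x]
    rw [← sub_smul]
    congr 1
    have : (m : ℂ) ≠ 0 := by exact_mod_cast hm0.ne'
    push_cast
    field_simp
  rw [e2, norm_smul, Complex.norm_real, Real.norm_eq_abs, abs_div, abs_of_pos hm0,
    div_mul_eq_mul_div]
  refine div_le_div_of_nonneg_right (mul_le_mul_of_nonneg_right ?_ (norm_nonneg _)) hm0.le
  have h1 : (c : ℝ) ≤ m := by exact_mod_cast hc1
  have h2 : (m : ℝ) ≤ c + (a + b) := by exact_mod_cast hc2
  rw [abs_le]
  constructor <;> linarith [Nat.cast_nonneg (α := ℝ) a, Nat.cast_nonneg (α := ℝ) b]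

theorem exists_snoc (s : Bool → O) (c : Bool) : ∀ (b : ℕ) (β : Wd b),
    ∃ β' : Wd (b + 1), sw s (b + 1) β' = sw s b β * s c
  | 0, _ => ⟨Wd.cons c (), by simp [sw, Wd.cons]⟩
  | b + 1, β => by
    obtain ⟨β', e⟩ := exists_snoc s c b β.2
    exact ⟨Wd.cons β.1 β', by rw [sw_cons, e, ← mul_assoc]; rfl⟩

/-- the span of the monomials -/
def monSpan (s : Bool → O) : Submodule ℂ O :=
  Submodule.span ℂ {x | ∃ a b, ∃ (α : Wd a) (β : Wd b), x = sw s a α * star (sw s b β)}

theorem CuntzData.mem_monSpan (h : CuntzData s π) {x : O}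
    (hx : x ∈ StarAlgebra.adjoin ℂ ({s false, s true} : Set O)) : x ∈ monSpan s := by
  have hmul : ∀ y : O, (∀ a b (α : Wd a) (β : Wd b), y * (sw s a α * star (sw s b β)) ∈ monSpan s) →
      ∀ t ∈ monSpan s, y * t ∈ monSpan s := by
    intro y hy t ht
    induction ht using Submodule.span_induction with
    | mem t ht => obtain ⟨a, b, α, β, rfl⟩ := ht; exact hy a b α β
    | zero => simp
    | add t u _ _ h1 h2 => rw [mul_add]; exact add_mem h1 h2
    | smul c t _ h1 => rw [mul_smul_comm]; exact Submodule.smul_mem _ c h1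
  have h1 : ∀ c, ∀ t ∈ monSpan s, s c * t ∈ monSpan s := fun c => hmul _ fun a b α β =>
    Submodule.subset_span ⟨a + 1, b, Wd.cons c α, β, by rw [sw_cons, mul_assoc]⟩
  have h2 : ∀ c, ∀ t ∈ monSpan s, star (s c) * t ∈ monSpan s := fun c => hmul _ fun a b α β => by
    rcases a with _ | a
    · obtain ⟨β', e⟩ := exists_snoc s c b β
      exact Submodule.subset_span ⟨0, b + 1, α, β', by rw [e, star_mul]; simp [sw]⟩
    · change star (s c) * (s α.1 * sw s a α.2 * _) ∈ _
      rw [mul_assoc, ← mul_assoc]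
      by_cases e : c = α.1
      · rw [← e, h.iso, one_mul]
        exact Submodule.subset_span ⟨a, b, α.2, β, rfl⟩
      · rw [h.orth e, zero_mul]; exact zero_mem _
  have key : (∀ t ∈ monSpan s, x * t ∈ monSpan s) ∧ (∀ t ∈ monSpan s, star x * t ∈ monSpan s) := by
    induction hx using StarAlgebra.adjoin_induction with
    | mem x hx => rcases hx with rfl | rfl <;> exact ⟨h1 _, h2 _⟩
    | algebraMap r =>
      refine ⟨fun t ht => ?_, fun t ht => ?_⟩
      · rw [← Algebra.smul_def]; exact Submodule.smul_mem _ _ ht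
      · rw [← algebraMap_star_comm, ← Algebra.smul_def]; exact Submodule.smul_mem _ _ ht
    | add x y _ _ hx hy =>
      refine ⟨fun t ht => ?_, fun t ht => ?_⟩
      · rw [add_mul]; exact add_mem (hx.1 t ht) (hy.1 t ht)
      · rw [star_add, add_mul]; exact add_mem (hx.2 t ht) (hy.2 t ht)
    | mul x y _ _ hx hy =>
      refine ⟨fun t ht => ?_, fun t ht => ?_⟩
      · rw [mul_assoc]; exact hx.1 _ (hy.1 t ht)
      · rw [star_mul, mul_assoc]; exact hy.2 _ (hx.2 t ht)
    | star x _ hx => exact ⟨hx.2, by rw [star_star]; exact hx.1⟩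
  have := key.1 1 (Submodule.subset_span ⟨0, 0, (), (), by simp [sw]⟩)
  rwa [mul_one] at this

theorem norm_rep_le (x : O) : ‖π x‖ ≤ ‖x‖ := NonUnitalStarAlgHom.norm_apply_le π x

theorem CuntzData.tendsto_Fm (h : CuntzData s π) (x : O) :
    Tendsto (fun m => Fm s π m x) atTop (𝓝 x) := by
  have h1 : ∀ y ∈ monSpan s, Tendsto (fun m => Fm s π m y) atTop (𝓝 y) := by
    intro y hy
    induction hy using Submodule.span_induction with
    | mem t ht => obtain ⟨a, b, α, β, rfl⟩ := ht; exact h.tendsto_Fm_sw a b α β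
    | zero =>
      have : ∀ m, Fm s π m 0 = 0 := fun m => by simpa using Fm_smul (s := s) (π := π) m 0 0
      simp only [this]; exact tendsto_const_nhds
    | add t u _ _ h1 h2 => simp only [Fm_add]; exact h1.add h2
    | smul c t _ h1 => simp only [Fm_smul]; exact h1.const_smul c
  have hx : x ∈ (StarAlgebra.adjoin ℂ ({s false, s true} : Set O)).topologicalClosure := by
    rw [h.dense]; trivial
  rw [Metric.tendsto_atTop]
  intro ε hε
  obtain ⟨y, hy, hxy⟩ := Metric.mem_closure_iff.1 hx (ε / 3) (by positivity)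
  obtain ⟨N, hN⟩ := Metric.tendsto_atTop.1 (h1 y (h.mem_monSpan hy)) (ε / 3) (by positivity)
  refine ⟨N, fun m hm => ?_⟩
  have h2 : dist (Fm s π m x) (Fm s π m y) ≤ dist x y := by
    rw [dist_eq_norm, dist_eq_norm, ← Fm_sub]
    exact (h.norm_Fm_le m _).trans (norm_rep_le _)
  linarith [dist_triangle4 (Fm s π m x) (Fm s π m y) y x, hN m hm, dist_comm x y]

theorem CuntzData.norm_rep (h : CuntzData s π) (x : O) : ‖π x‖ = ‖x‖ :=
  le_antisymm (norm_rep_le x) (le_of_tendsto' (h.tendsto_Fm x).norm fun m => h.norm_Fm_le m x)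

theorem CuntzData.QF_psi_le (h : CuntzData s π) {m k : ℕ} (hk : 100 * Fintype.card (Ix m) < k)
    (x : Fin 3 → Z3 → O) {C : ℝ} (hC : ∀ i c, ‖x i c‖ ^ 2 ≤ C) (η : Vec (Y k) HH) :
    QF k (fun i c => π (psi s (phi π m (x i c)))) η ≤ m * ((375 * C + 363) / 2 * ‖η‖ ^ 2) := by
  have key := vector_bound hk (fun i c => phi π m (x i c)) (C := C)
    (fun i c => phi_contr m _ (by rw [h.norm_rep]; exact hC i c))
    (fun i c => by
      have := phi_contr (π := π) m (star (x i c)) (C := C)
        (by rw [h.norm_rep, norm_star]; exact hC i c)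
      rwa [← phi_star, conjTranspose_conjTranspose] at this)
    (fun p => π (star (swI s p.1)) (η p.2))
  have adj : ∀ (y : O) (v w : HH), ⟪π (star y) v, w⟫_ℂ = ⟪v, π y w⟫_ℂ := fun y v w => by
    rw [map_star, ContinuousLinearMap.star_eq_adjoint, ContinuousLinearMap.adjoint_inner_left]
  have e1 : ∑ p : Ix m × Y k, ‖π (star (swI s p.1)) (η p.2)‖ ^ 2 = m * ‖η‖ ^ 2 := by
    rw [Fintype.sum_prod_type, sum_comm, PiLp.norm_sq_eq_of_L2, mul_sum]
    refine sum_congr rfl fun χ _ => ?_
    simp only [@norm_sq_eq_re_inner ℂ, adj, ← map_sum, ← inner_sum, ← mul_apply_eq_comp,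
      ← map_mul, ← _root_.sum_apply]
    rw [h.sum_swI, map_smul, map_one, _root_.smul_apply, one_apply_eq_self, inner_smul_right]
    simp
  rw [e1] at key
  refine le_trans (le_of_eq ?_) (key.trans (le_of_eq (by ring)))
  refine sum_congr rfl fun i _ => sum_congr rfl fun c _ => ?_
  rw [← RCLike.re_to_complex, inner_re_symm, RCLike.re_to_complex, PiLp.inner_apply]
  congr 1
  refine sum_congr rfl fun χ _ => ?_
  simp only [PP, mono_apply, psi, map_sum, map_smul, _root_.sum_apply, _root_.smul_apply,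
    inner_smul_right, inner_sum, mul_sum, adj, map_mul, mul_apply_eq_comp, mul_assoc]

theorem QF_sub (k : ℕ) (S T : Fin 3 → Z3 → HH →L[ℂ] HH) (η : Vec (Y k) HH) :
    QF k (fun i c => S i c - T i c) η = QF k S η - QF k T η := by
  simp only [QF, PP, mono_sub, _root_.sub_apply, inner_sub_left, Complex.sub_re, sum_sub_distrib]

theorem QF_smul_op (k : ℕ) (r : ℝ) (T : Fin 3 → Z3 → HH →L[ℂ] HH) (η : Vec (Y k) HH) :
    QF k (fun i c => (r : ℂ) • T i c) η = r * QF k T η := by
  simp only [QF, PP, mono_smul, _root_.smul_apply, inner_smul_left, Complex.conj_ofReal,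
    Complex.re_ofReal_mul, mul_sum]

theorem CuntzData.finite_levels (h : CuntzData s π) (x : Fin 3 → Z3 → O)
    (hx : ∀ i c, ‖x i c‖ ≤ 1001 / 1000) : ∃ K, ∀ k ≥ K, ∀ η : Vec (Y k) HH,
      QF k (fun i c => π (x i c)) η ≤ 370 * ‖η‖ ^ 2 := by
  have h1 : ∀ᶠ m in atTop, ∀ i c, ‖x i c - Fm s π m (x i c)‖ ≤ 1 / 2000 := by
    refine eventually_all.2 fun i => eventually_all.2 fun c => ?_
    have := (tendsto_iff_norm_sub_tendsto_zero.1 (h.tendsto_Fm (x i c))).eventually
      (ge_mem_nhds (show (0 : ℝ) < 1 / 2000 by norm_num))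
    filter_upwards [this] with m hm
    rwa [norm_sub_rev]
  obtain ⟨m, hm, hm0⟩ := (h1.and (eventually_gt_atTop 0)).exists
  refine ⟨100 * Fintype.card (Ix m) + 1, fun k hk η => ?_⟩
  have h2 := h.QF_psi_le (m := m) (k := k) (by omega) x (C := (1001 / 1000) ^ 2)
    (fun i c => pow_le_pow_left₀ (norm_nonneg _) (hx i c) 2) η
  have h3 := (le_abs_self _).trans (abs_QF_le k
    (T := fun i c => π (x i c) - π (Fm s π m (x i c))) (C := 1 / 2000)
    (fun i c => by rw [← map_sub, h.norm_rep]; exact hm i c) η)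
  rw [QF_sub] at h3
  have hm' : (0 : ℝ) < m := by exact_mod_cast hm0
  have h4 : QF k (fun i c => π (Fm s π m (x i c))) η =
      (m : ℝ)⁻¹ * QF k (fun i c => π (psi s (phi π m (x i c)))) η := by
    rw [← QF_smul_op]
    simp only [Fm, map_smul, Complex.ofReal_inv, Complex.ofReal_natCast]
  rw [← inv_mul_le_iff₀ hm', ← h4] at h2
  nlinarith [sq_nonneg ‖η‖]

end Crest.Agent.R73
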