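import Crest.Agent.R73.Group

/-!
Characters of the translation group, sorted by level.
-/

set_option autoImplicit false
set_option linter.unusedSectionVars false

noncomputable section

namespace Crest.Agent.R73

open Matrix Polynomial Finset
open scoped ComplexConjugate

/-- characters of the translation group -/
abbrev Ch : Type := AddChar VV ℂ

/-- characters of the constants -/
abbrev Bc : Type := AddChar Z3 ℂ

/-- right action of the linear group -/
def act (A : GL (Fin 3) RR) (χ : Ch) : Ch where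
  toFun v := χ ((A : Matrix _ _ RR) *ᵥ v)
  map_zero_eq_one' := by simp
  map_add_eq_mul' v w := by rw [mulVec_add, AddChar.map_add_eq_mul]

theorem act_apply (A : GL (Fin 3) RR) (χ : Ch) (v : VV) :
    act A χ v = χ ((A : Matrix _ _ RR) *ᵥ v) := rfl

theorem act_mul (A B : GL (Fin 3) RR) (χ : Ch) : act (A * B) χ = act B (act A χ) := by
  ext v; simp [act_apply]

theorem act_one (χ : Ch) : act 1 χ = χ := by
  ext v; simp [act_apply]

/-- restriction along multiplication by `X` -/
def res (χ : Ch) : Ch where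
  toFun v := χ ((X : RR) • v)
  map_zero_eq_one' := by simp
  map_add_eq_mul' v w := by rw [smul_add, AddChar.map_add_eq_mul]

theorem res_apply (χ : Ch) (v : VV) : res χ v = χ ((X : RR) • v) := rfl

theorem res_act (A : GL (Fin 3) RR) (χ : Ch) : res (act A χ) = act A (res χ) := by
  ext v; simp [act_apply, res_apply, mulVec_smul]

/-- constant vectors -/
def cV (c : Z3) : VV := fun i => C (c i)

theorem cV_add (c d : Z3) : cV (c + d) = cV c + cV d := by
  ext1 i; simp [cV]

theorem cV_zero : cV 0 = 0 := by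
  ext1 i; simp [cV]

/-- constant coefficients -/
def c0 (v : VV) : Z3 := fun i => (v i).coeff 0

/-- division by `X` -/
def dX (v : VV) : VV := fun i => (v i).divX

theorem cV_add_dX (v : VV) : cV (c0 v) + (X : RR) • dX v = v := by
  ext1 i
  simp only [cV, c0, dX, Pi.add_apply, Pi.smul_apply, smul_eq_mul]
  rw [add_comm, X_mul_divX_add]

theorem c0_cV (c : Z3) : c0 (cV c) = c := by
  ext1 i; simp [cV, c0]

theorem dX_cV (c : Z3) : dX (cV c) = 0 := by
  ext1 i; simp [cV, dX]

theorem c0_X (v : VV) : c0 ((X : RR) • v) = 0 := by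
  ext1 i; simp [c0]

theorem dX_X (v : VV) : dX ((X : RR) • v) = v := by
  ext i n; simp [dX]

/-- restriction to constants -/
def cst (χ : Ch) : Bc where
  toFun c := χ (cV c)
  map_zero_eq_one' := by simp [cV_zero]
  map_add_eq_mul' v w := by rw [cV_add, AddChar.map_add_eq_mul]

theorem cst_apply (χ : Ch) (c : Z3) : cst χ c = χ (cV c) := rfl

/-- extension of a character -/
def extc (β : Bc) (χ : Ch) : Ch where
  toFun v := β (c0 v) * χ (dX v)
  map_zero_eq_one' := by
    rw [← cV_zero, c0_cV, dX_cV]; simp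
  map_add_eq_mul' v w := by
    have h1 : c0 (v + w) = c0 v + c0 w := by ext1 i; simp [c0]
    have h2 : dX (v + w) = dX v + dX w := by ext1 i; simp [dX, divX_add]
    rw [h1, h2, AddChar.map_add_eq_mul, AddChar.map_add_eq_mul]; ring

theorem extc_apply (β : Bc) (χ : Ch) (v : VV) : extc β χ v = β (c0 v) * χ (dX v) := rfl

theorem res_extc (β : Bc) (χ : Ch) : res (extc β χ) = χ := by
  ext v; rw [res_apply, extc_apply, c0_X, dX_X]; simp

theorem cst_extc (β : Bc) (χ : Ch) : cst (extc β χ) = β := by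
  ext v; rw [cst_apply, extc_apply, c0_cV, dX_cV]; simp

theorem extc_cst_res (χ : Ch) : extc (cst χ) (res χ) = χ := by
  ext v; rw [extc_apply, cst_apply, res_apply, ← AddChar.map_add_eq_mul, cV_add_dX]

theorem norm_ch (χ : Ch) (v : VV) : ‖χ v‖ = 1 := by
  have h5 : (5 : ℕ) • v = 0 := by
    ext1 i
    rw [Pi.smul_apply, nsmul_eq_mul, CharP.cast_eq_zero RR 5, zero_mul]; rfl
  have : χ v ^ 5 = 1 := by rw [← AddChar.map_nsmul_eq_pow, h5, AddChar.map_zero_eq_one]
  exact Complex.norm_eq_one_of_pow_eq_one this (by norm_num)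

theorem conj_mul_ch (χ : Ch) (v : VV) : conj (χ v) * χ v = 1 := by
  rw [Complex.conj_mul', norm_ch]; simp

/-- trivial on multiples of `X ^ k` -/
def triv (k : ℕ) (χ : Ch) : Prop := ∀ v, χ ((X : RR) ^ k • v) = 1

/-- exact level -/
def lvl (k : ℕ) (χ : Ch) : Prop := triv k χ ∧ ∀ j < k, ¬ triv j χ

theorem triv_succ (k : ℕ) (χ : Ch) : triv (k + 1) χ ↔ triv k (res χ) := by
  simp only [triv, res_apply, smul_smul, pow_succ']

theorem triv_act (k : ℕ) (A : GL (Fin 3) RR) {χ : Ch} (h : triv k χ) : triv k (act A χ) := by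
  intro v; rw [act_apply, mulVec_smul]; exact h _

theorem triv_act_iff (k : ℕ) (A : GL (Fin 3) RR) (χ : Ch) : triv k (act A χ) ↔ triv k χ :=
  ⟨fun h => by
    have := triv_act k A⁻¹ h
    rwa [← act_mul, mul_inv_cancel, act_one] at this, triv_act k A⟩

theorem lvl_act {k : ℕ} (A : GL (Fin 3) RR) {χ : Ch} (h : lvl k χ) : lvl k (act A χ) := by
  simpa only [lvl, triv_act_iff] using h

/-- admissible characters of the constants -/
def okB (k : ℕ) (β : Bc) : Prop := k = 0 → β ≠ 1

theorem lvl_succ (k : ℕ) (χ : Ch) : lvl (k + 1) χ ↔ lvl k (res χ) ∧ okB k (cst χ) := by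
  have h0 : triv 0 χ ↔ χ = 1 := by simp [triv, AddChar.eq_one_iff]
  constructor
  · rintro ⟨h1, h2⟩
    refine ⟨⟨(triv_succ k χ).1 h1, fun j hj => ?_⟩, ?_⟩
    · rw [← triv_succ]; exact h2 _ (by omega)
    · rintro rfl hc
      apply h2 0 (by omega)
      intro v
      have h3 := (triv_succ 0 χ).1 h1 (dX v)
      rw [pow_zero, one_smul] at h3 ⊢
      rw [← extc_cst_res χ, extc_apply, hc, h3]; simp
  · rintro ⟨⟨h1, h2⟩, h3⟩
    refine ⟨(triv_succ k χ).2 h1, fun j hj => ?_⟩
    rcases j with _ | j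
    · rw [h0]
      rintro rfl
      rcases k with _ | k
      · exact h3 rfl (by ext c; simp [cst_apply])
      · exact h2 0 (by omega) (fun v => by simp [res_apply])
    · rw [triv_succ]; exact h2 j (by omega)

theorem lvl_zero (χ : Ch) : lvl 0 χ ↔ χ = 1 := by simp [lvl, triv, AddChar.eq_one_iff]

/-- characters of level `k` -/
def Y (k : ℕ) : Type := {χ : Ch // lvl k χ}

/-- the structure of the next level -/
def Ysucc (k : ℕ) : Y (k + 1) ≃ Y k × {β : Bc // okB k β} where
  toFun χ := (⟨res χ.1, ((lvl_succ k χ.1).1 χ.2).1⟩, ⟨cst χ.1, ((lvl_succ k χ.1).1 χ.2).2⟩)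
  invFun p := ⟨extc p.2.1 p.1.1, (lvl_succ k _).2 (by
    rw [res_extc, cst_extc]; exact ⟨p.1.2, p.2.2⟩)⟩
  left_inv χ := Subtype.ext (extc_cst_res χ.1)
  right_inv p := Prod.ext (Subtype.ext (res_extc _ _)) (Subtype.ext (cst_extc _ _))

instance : Unique (Y 0) where
  default := ⟨1, (lvl_zero 1).2 rfl⟩
  uniq χ := Subtype.ext ((lvl_zero _).1 χ.2)

instance finiteY : ∀ k, Finite (Y k)
  | 0 => inferInstance
  | k + 1 => by
    have := finiteY k
    exact Finite.of_equiv _ (Ysucc k).symm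

instance (k : ℕ) : Fintype (Y k) := Fintype.ofFinite _

instance (k : ℕ) : DecidableEq (Y k) := Classical.decEq _

instance (k : ℕ) : Fintype {β : Bc // okB k β} := Fintype.ofFinite _

/-- action on a level -/
def actY {k : ℕ} (A : GL (Fin 3) RR) (χ : Y k) : Y k := ⟨act A χ.1, lvl_act A χ.2⟩

theorem actY_mul {k : ℕ} (A B : GL (Fin 3) RR) (χ : Y k) :
    actY (A * B) χ = actY B (actY A χ) := Subtype.ext (act_mul A B χ.1)

theorem actY_one {k : ℕ} (χ : Y k) : actY 1 χ = χ := Subtype.ext (act_one χ.1)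

/-- the action as a permutation -/
def actE {k : ℕ} (A : GL (Fin 3) RR) : Y k ≃ Y k where
  toFun := actY A
  invFun := actY A⁻¹
  left_inv χ := by rw [← actY_mul, mul_inv_cancel, actY_one]
  right_inv χ := by rw [← actY_mul, inv_mul_cancel, actY_one]

/-- restriction between levels -/
def resY {k : ℕ} (χ : Y (k + 1)) : Y k := ⟨res χ.1, ((lvl_succ k χ.1).1 χ.2).1⟩

theorem resY_actY {k : ℕ} (A : GL (Fin 3) RR) (χ : Y (k + 1)) :
    resY (actY A χ) = actY A (resY χ) := Subtype.ext (res_act A χ.1)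

theorem sum_Ysucc {M : Type*} [AddCommMonoid M] (k : ℕ) (f : Y k → Bc → M) :
    ∑ χ : Y (k + 1), f (resY χ) (cst χ.1) = ∑ χ : Y k, ∑ β : {β : Bc // okB k β}, f χ β.1 := by
  rw [← Fintype.sum_prod_type']
  exact Fintype.sum_equiv (Ysucc k) _ _ fun χ => rfl

/-- the fibre sums -/
def kap (k : ℕ) (r : Z3) : ℝ := (if r = 0 then 125 else 0) - (if k = 0 then 1 else 0)

theorem sum_okB (k : ℕ) (r : Z3) : ∑ β : {β : Bc // okB k β}, conj (β.1 r) = (kap k r : ℂ) := by
  classical
  have h1 : ∑ β : Bc, β r = if r = 0 then 125 else 0 := by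
    rw [AddChar.sum_apply_eq_ite, card_Z3]; norm_num
  rw [← map_sum, ← Finset.sum_subtype (univ.filter (okB k)) (by simp) (fun β : Bc => β r)]
  rcases k with _ | k
  · have : univ.filter (okB 0) = univ.erase 1 := by ext β; simp [okB]
    rw [this, Finset.sum_erase_eq_sub (mem_univ _), h1]
    by_cases h : r = 0 <;> simp [h, kap, map_ofNat]
  · have : univ.filter (okB (k + 1)) = univ := by ext β; simp [okB]
    rw [this, h1]
    by_cases h : r = 0 <;> simp [h, kap, map_ofNat]

theorem card_okB_le (k : ℕ) : Fintype.card {β : Bc // okB k β} ≤ 125 := by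
  refine (Fintype.card_subtype_le _).trans ?_
  rw [AddChar.card_eq, card_Z3]

/-- the action on constants modulo `X` is a bijection -/
theorem c0_bijective (A : GL (Fin 3) RR) :
    Function.Bijective fun r : Z3 => c0 ((A : Matrix _ _ RR) *ᵥ cV r) := by
  rw [← Finite.injective_iff_bijective]
  have key : ∀ (B : GL (Fin 3) RR) (v : VV),
      c0 ((B : Matrix _ _ RR) *ᵥ cV (c0 v)) = c0 ((B : Matrix _ _ RR) *ᵥ v) := by
    intro B v
    conv_rhs => rw [← cV_add_dX v, mulVec_add, mulVec_smul]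
    ext1 i
    simp [c0]
  refine Function.LeftInverse.injective
    (g := fun r => c0 (((A⁻¹ : GL (Fin 3) RR) : Matrix _ _ RR) *ᵥ cV r)) fun r => ?_
  simp only
  rw [key, mulVec_mulVec, ← Units.val_mul, inv_mul_cancel, Units.val_one, one_mulVec, c0_cV]

/-- orbits are large -/
theorem orbit_large {k : ℕ} (χ : Y k) (d : Y k → ℝ) (hd : ∀ ψ, 0 ≤ d ψ)
    (hinv : ∀ i j h r ψ, d (actY (el i j h r) ψ) = d ψ) : k * d χ ≤ ∑ ψ, d ψ := by
  rcases k with _ | k
  · simpa using hd _
  have h1 : ¬ triv k χ.1 := χ.2.2 k (by omega)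
  have h2 : ∃ i r, χ.1 (Pi.single i (X ^ k * r)) ≠ 1 := by
    by_contra hc
    push Not at hc
    apply h1
    intro v
    have : (X : RR) ^ k • v = Pi.single 0 (X ^ k * v 0) + Pi.single 1 (X ^ k * v 1) +
        Pi.single 2 (X ^ k * v 2) := by
      ext1 i; fin_cases i <;> simp
    rw [this, AddChar.map_add_eq_mul, AddChar.map_add_eq_mul, hc, hc, hc]; simp
  obtain ⟨i, r, hr⟩ := h2
  obtain ⟨j, hij⟩ : ∃ j, i ≠ j := by
    rcases fin3_cases i with rfl | rfl | rfl
    exacts [⟨1, ne01⟩, ⟨0, ne10⟩, ⟨0, ne20⟩]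
  let f : Fin (k + 1) → Y (k + 1) := fun l => actY (el i j hij (X ^ (l : ℕ))) χ
  have key : ∀ l m : Fin (k + 1), l < m → f l ≠ f m := by
    intro l m hlm e
    have e1 := congrArg (fun ψ : Y (k + 1) => ψ.1 (Pi.single j (X ^ (k - l) * r))) e
    simp only [f, actY, act_apply, el_mulVec, AddChar.map_add_eq_mul, Pi.single_eq_same] at e1
    have e2 := mul_left_cancel₀ (by
      intro h0
      have := norm_ch χ.1 (Pi.single j (X ^ (k - l) * r))
      rw [h0] at this; simp at this) e1
    have hl : (l : ℕ) ≤ k := by omega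
    have hlm' : (l : ℕ) < m := hlm
    rw [← mul_assoc, ← pow_add, Nat.add_sub_cancel' hl] at e2
    apply hr
    rw [e2]
    have := χ.2.1 (Pi.single i (X ^ ((m : ℕ) - (l : ℕ) - 1) * r))
    rw [← Pi.single_smul, smul_eq_mul, ← mul_assoc, ← pow_add] at this
    rw [← mul_assoc, ← pow_add, ← this]
    congr 4
    omega
  have hf : Function.Injective f := by
    intro l m e
    rcases lt_trichotomy l m with h | h | h
    · exact absurd e (key l m h)
    · exact h
    · exact absurd e.symm (key m l h)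
  calc ((k + 1 : ℕ) : ℝ) * d χ = ∑ l : Fin (k + 1), d (f l) := by
        simp only [f, hinv, sum_const, card_univ, Fintype.card_fin, nsmul_eq_mul]
    _ = ∑ ψ ∈ univ.map ⟨f, hf⟩, d ψ := by rw [sum_map]; rfl
    _ ≤ ∑ ψ, d ψ := sum_le_sum_of_subset_of_nonneg (subset_univ _) fun ψ _ _ => hd ψ

end Crest.Agent.R73
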