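import Crest.Agent.R73.L2

/-!
Finite-dimensional completely positive approximation of an algebra generated by a Cuntz pair.
-/

set_option autoImplicit false
set_option linter.unusedSectionVars false

noncomputable section

namespace Crest.Agent.R73

open Finset Filter Topology Matrix
open scoped InnerProductSpace ComplexConjugate ComplexOrder MatrixOrder

/-- words of length `l` -/
def Wd : ℕ → Type
  | 0 => Unit
  | l + 1 => Bool × Wd l

instance fintypeWd : ∀ l, Fintype (Wd l)
  | 0 => inferInstanceAs (Fintype Unit)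
  | l + 1 => letI := fintypeWd l; inferInstanceAs (Fintype (Bool × Wd l))

instance (l : ℕ) : DecidableEq (Wd l) := Classical.decEq _

/-- prepend a letter -/
def Wd.cons {l : ℕ} (b : Bool) (μ : Wd l) : Wd (l + 1) := (b, μ)

theorem sum_Wd_succ {M : Type*} [AddCommMonoid M] (l : ℕ) (f : Wd (l + 1) → M) :
    ∑ μ, f μ = ∑ b : Bool, ∑ μ : Wd l, f (Wd.cons b μ) :=
  Fintype.sum_prod_type (α₁ := Bool) (α₂ := Wd l) f

theorem sum_Wd_zero {M : Type*} [AddCommMonoid M] (f : Wd 0 → M) : ∑ μ, f μ = f () :=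
  Fintype.sum_unique (ι := Unit) f

/-- position of a word -/
def pos : ∀ l, Wd l → ℤ × ℕ
  | 0, _ => (0, 0)
  | l + 1, μ => br μ.1 (pos l μ.2)

theorem pos_cons {l : ℕ} (b : Bool) (μ : Wd l) : pos (l + 1) (Wd.cons b μ) = br b (pos l μ) := rfl

theorem pos_fst : ∀ l (μ : Wd l), (pos l μ).1 = l
  | 0, _ => rfl
  | l + 1, μ => by
    change (pos l μ.2).1 + 1 = _
    rw [pos_fst l]; push_cast; rfl

theorem br_eq {b b' : Bool} {p q : ℤ × ℕ} (h : br b p = br b' q) : b = b' := by
  simp only [br, Prod.mk.injEq] at h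
  cases b <;> cases b' <;> simp at h ⊢ <;> omega

theorem pos_inj : ∀ l, Function.Injective (pos l)
  | 0 => fun _ _ _ => rfl
  | l + 1 => by
    rintro ⟨b, μ⟩ ⟨b', ν⟩ h
    obtain rfl : b = b' := br_eq h
    obtain rfl : μ = ν := pos_inj l (br_inj b h)
    rfl

theorem star_cS_dl (b b' : Bool) (p : ℤ × ℕ) :
    (star (cS b)) (dl (br b' p)) = if b' = b then dl p else 0 := by
  rw [cS, star_star]
  split_ifs with h
  · rw [h, pull_dl]
  · exact pull_dl_of_not _ _ fun w hw => h (br_eq hw).symm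

variable {O : Type} [CStarAlgebra O]

/-- the product along a word -/
def sw (s : Bool → O) : ∀ l, Wd l → O
  | 0, _ => 1
  | l + 1, μ => s μ.1 * sw s l μ.2

theorem sw_cons (s : Bool → O) {l : ℕ} (b : Bool) (μ : Wd l) :
    sw s (l + 1) (Wd.cons b μ) = s b * sw s l μ := rfl

/-- the Hilbert space -/
abbrev HH : Type := L2 (ℤ × ℕ)

/-- data of a Cuntz pair with a graded representation -/
structure CuntzData (s : Bool → O) (π : O →⋆ₐ[ℂ] (HH →L[ℂ] HH)) : Prop where
  iso : ∀ b, star (s b) * s b = 1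
  sum : s false * star (s false) + s true * star (s true) = 1
  rep : ∀ b, π (s b) = cS b
  dense : (StarAlgebra.adjoin ℂ ({s false, s true} : Set O)).topologicalClosure = ⊤

variable {s : Bool → O} {π : O →⋆ₐ[ℂ] (HH →L[ℂ] HH)}

theorem CuntzData.orth (h : CuntzData s π) {b b' : Bool} (hb : b ≠ b') : star (s b) * s b' = 0 := by
  have key : star (s false) * s true = 0 := by
    have h1 := congrArg (fun x => star (s false) * x * s false) h.sum
    simp only [mul_add, add_mul, mul_one, h.iso, ← mul_assoc, one_mul, add_eq_left] at h1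
    rw [← CStarRing.mul_star_self_eq_zero_iff, star_mul, star_star, ← mul_assoc, h1]
  cases b <;> cases b'
  · exact absurd rfl hb
  · exact key
  · rw [← star_eq_zero, star_mul, star_star, key]
  · exact absurd rfl hb

theorem CuntzData.sum_sw (h : CuntzData s π) : ∀ l, ∑ μ, sw s l μ * star (sw s l μ) = 1
  | 0 => by rw [sum_Wd_zero]; simp [sw]
  | l + 1 => by
    rw [sum_Wd_succ]
    simp only [sw_cons, star_mul]
    have : ∀ b, ∑ μ, s b * sw s l μ * (star (sw s l μ) * star (s b)) = s b * star (s b) := by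
      intro b
      calc _ = s b * (∑ μ, sw s l μ * star (sw s l μ)) * star (s b) := by
            simp only [mul_sum, sum_mul, mul_assoc]
        _ = _ := by rw [h.sum_sw l, mul_one]
    rw [Fintype.sum_bool, this, this, add_comm, h.sum]

/-- matrix coefficients -/
def cf (π : O →⋆ₐ[ℂ] (HH →L[ℂ] HH)) (x : O) (p q : ℤ × ℕ) : ℂ := ⟪dl p, π x (dl q)⟫_ℂ

/-- the block of the approximation -/
def Th (s : Bool → O) (π : O →⋆ₐ[ℂ] (HH →L[ℂ] HH)) (l l' : ℕ) (x : O) : O :=
  ∑ μ, ∑ ν, cf π x (pos l μ) (pos l' ν) • (sw s l μ * star (sw s l' ν))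

theorem CuntzData.Th_left (h : CuntzData s π) (l l' : ℕ) (b : Bool) (y : O) :
    Th s π (l + 1) l' (s b * y) = s b * Th s π l l' y := by
  have key : ∀ b' p q, cf π (s b * y) (br b' p) q = if b' = b then cf π y p q else 0 := by
    intro b' p q
    rw [cf, map_mul, mul_apply_eq_comp, h.rep, ← ContinuousLinearMap.adjoint_inner_left,
      ← ContinuousLinearMap.star_eq_adjoint, star_cS_dl]
    split_ifs <;> simp [cf]
  rw [Th, Th, sum_Wd_succ, sum_eq_single b (fun b' _ hb => by simp [pos_cons, key, hb]) (by simp)]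
  simp only [pos_cons, key, if_true, sw_cons, mul_sum, mul_smul_comm, mul_assoc]

theorem CuntzData.Th_right (h : CuntzData s π) (l l' : ℕ) (b : Bool) (y : O) :
    Th s π l (l' + 1) (y * star (s b)) = Th s π l l' y * star (s b) := by
  have key : ∀ b' p q, cf π (y * star (s b)) p (br b' q) = if b' = b then cf π y p q else 0 := by
    intro b' p q
    rw [cf, map_mul, mul_apply_eq_comp, map_star, h.rep, star_cS_dl]
    split_ifs <;> simp [cf]
  rw [Th, Th, sum_mul]
  refine sum_congr rfl fun μ _ => ?_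
  rw [sum_Wd_succ, sum_eq_single b (fun b' _ hb => by simp [pos_cons, key, hb]) (by simp)]
  simp only [pos_cons, key, if_true, sw_cons, sum_mul, smul_mul_assoc, mul_assoc, star_mul]

theorem CuntzData.Th_one (h : CuntzData s π) (l l' : ℕ) :
    Th s π l l' 1 = if l = l' then 1 else 0 := by
  have key : ∀ p q, cf π 1 p q = if p = q then 1 else 0 := by
    intro p q
    rw [cf, map_one, one_apply_eq_self, inner_dl, dl_apply]
  split_ifs with e
  · subst e
    simp only [Th, key, (pos_inj l).eq_iff, ite_smul, one_smul, zero_smul, sum_ite_eq, mem_univ,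
      if_true]
    exact h.sum_sw l
  · refine sum_eq_zero fun μ _ => sum_eq_zero fun ν _ => ?_
    rw [key, if_neg, zero_smul]
    intro e'
    have := congrArg Prod.fst e'
    rw [pos_fst, pos_fst] at this
    exact e (by exact_mod_cast this)

theorem CuntzData.Th_sw (h : CuntzData s π) : ∀ (a b : ℕ) (α : Wd a) (β : Wd b) (l l' : ℕ),
    Th s π (l + a) (l' + b) (sw s a α * star (sw s b β)) =
      if l = l' then sw s a α * star (sw s b β) else 0
  | 0, 0, _, _, l, l' => by simpa [sw] using h.Th_one l l'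
  | a + 1, b, α, β, l, l' => by
    have := h.Th_sw a b α.2 β l l'
    change Th s π (l + a + 1) _ (s α.1 * sw s a α.2 * _) =
      if l = l' then s α.1 * sw s a α.2 * _ else 0
    rw [mul_assoc, h.Th_left, this]
    split_ifs <;> simp
  | 0, b + 1, α, β, l, l' => by
    have := h.Th_sw 0 b α β.2 l l'
    change Th s π _ (l' + b + 1) (_ * star (s β.1 * sw s b β.2)) =
      if l = l' then _ * star (s β.1 * sw s b β.2) else 0
    rw [star_mul, ← mul_assoc, h.Th_right, this]
    split_ifs <;> simp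

/-- the index set of the approximation -/
abbrev Ix (m : ℕ) : Type := Σ i : Fin m, Wd (m + i)

/-- position of an index -/
def posI {m : ℕ} (μ : Ix m) : ℤ × ℕ := pos _ μ.2

theorem posI_inj (m : ℕ) : Function.Injective (posI (m := m)) := by
  rintro ⟨i, μ⟩ ⟨j, ν⟩ e
  have h1 := congrArg Prod.fst e
  simp only [posI, pos_fst] at h1
  obtain rfl : i = j := Fin.ext (by omega)
  obtain rfl : μ = ν := pos_inj _ e
  rfl

/-- the product along an index -/
def swI (s : Bool → O) {m : ℕ} (μ : Ix m) : O := sw s _ μ.2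

theorem CuntzData.sum_swI (h : CuntzData s π) (m : ℕ) :
    ∑ μ : Ix m, swI s μ * star (swI s μ) = (m : ℂ) • (1 : O) := by
  rw [Fintype.sum_sigma]
  simp only [swI, h.sum_sw, sum_const, card_univ, Fintype.card_fin]
  rw [Nat.cast_smul_eq_nsmul]

/-- the compression -/
def phi (π : O →⋆ₐ[ℂ] (HH →L[ℂ] HH)) (m : ℕ) (x : O) : Matrix (Ix m) (Ix m) ℂ :=
  fun μ ν => cf π x (posI μ) (posI ν)

/-- the map back (unnormalised) -/
def psi (s : Bool → O) {m : ℕ} (a : Matrix (Ix m) (Ix m) ℂ) : O :=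
  ∑ μ, ∑ ν, a μ ν • (swI s μ * star (swI s ν))

theorem psi_phi (m : ℕ) (x : O) :
    psi s (phi π m x) = ∑ i : Fin m, ∑ j : Fin m, Th s π (m + i) (m + j) x := by
  rw [psi, Fintype.sum_sigma]
  refine sum_congr rfl fun i _ => ?_
  simp only [Fintype.sum_sigma, Th]
  rw [sum_comm]
  rfl

theorem phi_star (m : ℕ) (x : O) : (phi π m x)ᴴ = phi π m (star x) := by
  ext μ ν
  rw [conjTranspose_apply, phi, phi, cf, cf, map_star, ContinuousLinearMap.star_eq_adjoint,
    ContinuousLinearMap.adjoint_inner_right, RCLike.star_def, inner_conj_symm]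

theorem phi_contr (m : ℕ) (x : O) {C : ℝ} (hC : ‖π x‖ ^ 2 ≤ C) :
    ((C : ℂ) • (1 : Matrix (Ix m) (Ix m) ℂ) - (phi π m x)ᴴ * phi π m x).PosSemidef := by
  have ho : Orthonormal ℂ fun μ : Ix m => (dl (posI μ) : HH) := by
    rw [orthonormal_iff_ite]
    intro μ ν
    rw [inner_dl, dl_apply]
    simp only [(posI_inj m).eq_iff]
  rw [posSemidef_iff_dotProduct_mulVec]
  refine ⟨?_, fun c => ?_⟩
  · refine IsHermitian.sub ?_ (isHermitian_conjTranspose_mul_self _)
    simp [IsHermitian]
  · set ξ : HH := ∑ ν, c ν • dl (posI ν) with hξ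
    have h1 : ‖ξ‖ ^ 2 = ∑ ν, ‖c ν‖ ^ 2 := by
      rw [@norm_sq_eq_re_inner ℂ, hξ, ho.inner_sum, map_sum]
      refine sum_congr rfl fun ν _ => ?_
      rw [Complex.conj_mul', RCLike.re_to_complex]
      norm_cast
    have h2 : ∀ μ, (phi π m x *ᵥ c) μ = ⟪dl (posI μ), π x ξ⟫_ℂ := by
      intro μ
      rw [hξ, map_sum, inner_sum, mulVec, dotProduct]
      refine sum_congr rfl fun ν _ => ?_
      rw [map_smul, inner_smul_right, mul_comm]; rfl
    have h3 : ∑ μ, ‖(phi π m x *ᵥ c) μ‖ ^ 2 ≤ C * ∑ ν, ‖c ν‖ ^ 2 := by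
      simp only [h2]
      refine (ho.sum_inner_products_le _).trans ?_
      rw [← h1]
      refine (pow_le_pow_left₀ (norm_nonneg _) ((π x).le_opNorm ξ) 2).trans ?_
      rw [mul_pow]
      exact mul_le_mul_of_nonneg_right hC (sq_nonneg _)
    have h4 : ∀ d : Ix m → ℂ, star d ⬝ᵥ d = ((∑ ν, ‖d ν‖ ^ 2 : ℝ) : ℂ) := by
      intro d
      rw [dotProduct]
      push_cast
      exact sum_congr rfl fun ν _ => Complex.conj_mul' _
    rw [sub_mulVec, dotProduct_sub, smul_mulVec, one_mulVec, dotProduct_smul, ← mulVec_mulVec,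
      dotProduct_mulVec, vecMul_conjTranspose, star_star, h4, h4, smul_eq_mul, sub_nonneg]
    exact_mod_cast h3

theorem psi_star_mul {m : ℕ} (a : Matrix (Ix m) (Ix m) ℂ) :
    psi s (aᴴ * a) = ∑ κ, star (∑ ν, a κ ν • star (swI s ν)) * ∑ ν, a κ ν • star (swI s ν) := by
  simp only [psi, Matrix.mul_apply, conjTranspose_apply, sum_smul, star_sum, star_smul, star_star,
    sum_mul, mul_sum, smul_mul_assoc, mul_smul_comm, smul_sum, smul_smul]
  conv_rhs => rw [sum_comm]
  conv_lhs => rw [sum_comm]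
  refine sum_congr rfl fun ν _ => ?_
  rw [sum_comm]
  refine sum_congr rfl fun κ _ => sum_congr rfl fun μ _ => ?_
  rw [mul_comm (a κ ν)]

theorem psi_sub {m : ℕ} (a b : Matrix (Ix m) (Ix m) ℂ) : psi s (a - b) = psi s a - psi s b := by
  simp [psi, sub_smul]

theorem CuntzData.psi_smul_one (h : CuntzData s π) {m : ℕ} (c : ℂ) :
    psi s (c • (1 : Matrix (Ix m) (Ix m) ℂ)) = (c * m) • (1 : O) := by
  rw [mul_smul, ← h.sum_swI, smul_sum, psi]
  refine sum_congr rfl fun μ _ => ?_
  simp [one_apply, ite_smul]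

theorem CuntzData.norm_psi_le (h : CuntzData s π) {m : ℕ} (a : Matrix (Ix m) (Ix m) ℂ) {C : ℝ}
    (hC : 0 ≤ C) (ha : (((C ^ 2 : ℝ) : ℂ) • (1 : Matrix (Ix m) (Ix m) ℂ) - aᴴ * a).PosSemidef) :
    ‖psi s a‖ ≤ m * C := by
  let _ := CStarAlgebra.spectralOrder O
  let _ := CStarAlgebra.spectralOrderedRing O
  rcases Nat.eq_zero_or_pos m with rfl | hm
  · simp [psi]
  obtain ⟨b, hb⟩ := CStarAlgebra.nonneg_iff_eq_star_mul_self.mp ha.nonneg
  have h1 : 0 ≤ psi s (bᴴ * b) := by
    rw [psi_star_mul]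
    exact sum_nonneg fun κ _ => star_mul_self_nonneg _
  rw [← star_eq_conjTranspose, ← hb, psi_sub, h.psi_smul_one, psi_star_mul, sub_nonneg] at h1
  set z : Ix m → O := fun κ => ∑ ν, a κ ν • star (swI s ν) with hz
  set y := psi s a with hy
  have hy' : y = ∑ κ, swI s κ * z κ := by
    simp only [hy, hz, psi, mul_sum, mul_smul_comm]
  have h2 : 0 ≤ ∑ κ, star ((m : ℂ) • z κ - star (swI s κ) * y) *
      ((m : ℂ) • z κ - star (swI s κ) * y) := sum_nonneg fun κ _ => star_mul_self_nonneg _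
  have h3 : ∑ κ, star ((m : ℂ) • z κ - star (swI s κ) * y) *
      ((m : ℂ) • z κ - star (swI s κ) * y) =
      (m : ℂ) • ((m : ℂ) • ∑ κ, star (z κ) * z κ - star y * y) := by
    have e1 : ∑ κ, star (z κ) * (star (swI s κ) * y) = star y * y := by
      conv_rhs => rw [hy', star_sum, ← hy', sum_mul]
      simp only [star_mul, mul_assoc]
    have e2 : ∑ κ, star y * swI s κ * z κ = star y * y := by
      conv_rhs => rw [hy', mul_sum, ← hy']
      simp only [mul_assoc]
    have e3 : ∑ κ : Ix m, star y * swI s κ * (star (swI s κ) * y) = (m : ℂ) • (star y * y) := by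
      calc _ = star y * (∑ κ : Ix m, swI s κ * star (swI s κ)) * y := by
            simp only [mul_sum, sum_mul, mul_assoc]
        _ = _ := by rw [h.sum_swI]; simp
    simp only [star_sub, star_smul, star_mul, star_star, sub_mul, mul_sub, smul_mul_assoc,
      mul_smul_comm, sum_sub_distrib, ← smul_sum, e1, e2, e3, star_natCast]
    module
  have hm' : (0 : ℝ) < m := by exact_mod_cast hm
  have h4 : star y * y ≤ (m : ℝ) • ∑ κ, star (z κ) * z κ := by
    rw [h3] at h2
    have h5 := smul_nonneg (inv_nonneg.2 hm'.le) h2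
    rw [← Complex.coe_smul, smul_smul, Complex.ofReal_inv, Complex.ofReal_natCast,
      inv_mul_cancel₀ (by exact_mod_cast hm.ne'), one_smul, sub_nonneg] at h5
    rwa [← Complex.coe_smul, Complex.ofReal_natCast]
  have h6 : star y * y ≤ algebraMap ℝ O ((m * C) ^ 2) := by
    refine h4.trans ((smul_le_smul_of_nonneg_left h1 hm'.le).trans (le_of_eq ?_))
    rw [Algebra.algebraMap_eq_smul_one, ← Complex.coe_smul, ← Complex.coe_smul, smul_smul]
    congr 1
    push_cast; ring
  rw [← CStarAlgebra.norm_le_iff_le_algebraMap _ (sq_nonneg _) (star_mul_self_nonneg y),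
    CStarRing.norm_star_mul_self, ← sq] at h6
  exact le_of_sq_le_sq h6 (by positivity)

/-- the approximating maps -/
def Fm (s : Bool → O) (π : O →⋆ₐ[ℂ] (HH →L[ℂ] HH)) (m : ℕ) (x : O) : O :=
  (m : ℂ)⁻¹ • psi s (phi π m x)

theorem CuntzData.norm_Fm_le (h : CuntzData s π) (m : ℕ) (x : O) : ‖Fm s π m x‖ ≤ ‖π x‖ := by
  have := h.norm_psi_le (phi π m x) (norm_nonneg (π x)) (phi_contr m x le_rfl)
  rw [Fm, norm_smul, norm_inv, Complex.norm_natCast]
  rcases Nat.eq_zero_or_pos m with rfl | hm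
  · simp
  · rwa [inv_mul_le_iff₀ (by exact_mod_cast hm)]

theorem Fm_add (m : ℕ) (x y : O) : Fm s π m (x + y) = Fm s π m x + Fm s π m y := by
  simp [Fm, psi, phi, cf, add_smul, sum_add_distrib]

theorem Fm_sub (m : ℕ) (x y : O) : Fm s π m (x - y) = Fm s π m x - Fm s π m y := by
  simp [Fm, psi, phi, cf, sub_smul, smul_sub]

theorem Fm_smul (m : ℕ) (c : ℂ) (x : O) : Fm s π m (c • x) = c • Fm s π m x := by
  simp only [Fm, psi, phi, cf, map_smul, _root_.smul_apply, inner_smul_right,
    mul_smul, ← smul_sum]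
  rw [smul_comm]

end Crest.Agent.R73
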