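import Mathlib

/-!
A spectral gap for groups generated by three finite subgroups that pairwise generate
two-step nilpotent groups (an elementary angle argument).
-/

set_option autoImplicit false
set_option linter.unusedSectionVars false

noncomputable section

namespace Crest.Agent.R73

open scoped RealInnerProductSpace
open Finset

section Proj

variable {E : Type*} [NormedAddCommGroup E] [InnerProductSpace ℝ E]

/-- symmetric idempotent -/
structure IsProj (P : E →ₗ[ℝ] E) : Prop where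
  symm : ∀ v w, ⟪P v, w⟫ = ⟪v, P w⟫
  idem : ∀ v, P (P v) = P v

theorem IsProj.inner_self {P : E →ₗ[ℝ] E} (h : IsProj P) (v : E) : ⟪P v, v⟫ = ‖P v‖ ^ 2 := by
  rw [← real_inner_self_eq_norm_sq, h.symm (v) (P v), h.idem, h.symm]

theorem IsProj.inner_compl {P : E →ₗ[ℝ] E} (h : IsProj P) (v : E) :
    ⟪v - P v, v⟫ = ‖v - P v‖ ^ 2 := by
  rw [← real_inner_self_eq_norm_sq, inner_sub_right (v - P v), ← h.symm, map_sub, h.idem, sub_self,
    inner_zero_left, sub_zero]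

theorem IsProj.pyth {P : E →ₗ[ℝ] E} (h : IsProj P) (v : E) :
    ‖v - P v‖ ^ 2 = ‖v‖ ^ 2 - ‖P v‖ ^ 2 := by
  rw [← h.inner_compl, inner_sub_left, h.inner_self, real_inner_self_eq_norm_sq]

/-- small angle case -/
theorem pair_small {P Q : E →ₗ[ℝ] E} (hP : IsProj P) (hQ : IsProj Q) {ε : ℝ} (hε : 0 ≤ ε)
    (hε1 : ε ≤ 1) (S : Submodule ℝ E)
    (h : ∀ w ∈ S, ‖Q (P w)‖ ≤ ε * ‖P w‖) (v : E) (hv : v ∈ S) :
    -ε * (‖v - P v‖ ^ 2 + ‖v - Q v‖ ^ 2) ≤ 2 * ⟪v - P v, v - Q v⟫ := by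
  have h1 : ⟪P v, Q v⟫ ≤ ε * ‖P v‖ * ‖Q v‖ := by
    have : ⟪P v, Q v⟫ = ⟪Q (P v), Q v⟫ := by rw [hQ.symm, hQ.idem]
    rw [this]
    exact (real_inner_le_norm _ _).trans (mul_le_mul_of_nonneg_right (h v hv) (norm_nonneg _))
  set σ := ‖P v‖ ^ 2 + ‖Q v‖ ^ 2 with hσ
  have hσ0 : 0 ≤ σ := by positivity
  have h2 : ⟪P v + Q v, v⟫ = σ := by rw [inner_add_left, hP.inner_self, hQ.inner_self]
  have h3 : ‖P v + Q v‖ ^ 2 ≤ (1 + ε) * σ := by
    rw [norm_add_sq_real]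
    nlinarith [sq_nonneg (‖P v‖ - ‖Q v‖), mul_nonneg hε (sq_nonneg (‖P v‖ - ‖Q v‖))]
  have h4 : σ ≤ (1 + ε) * ‖v‖ ^ 2 := by
    have h5 : σ ≤ ‖P v + Q v‖ * ‖v‖ := h2 ▸ real_inner_le_norm _ _
    rcases hσ0.eq_or_lt with h0 | h0
    · rw [← h0]; positivity
    · have h6 : σ * σ ≤ (‖P v + Q v‖ * ‖v‖) * (‖P v + Q v‖ * ‖v‖) :=
        mul_le_mul h5 h5 hσ0 (by positivity)
      have h7 : σ * σ ≤ σ * ((1 + ε) * ‖v‖ ^ 2) := by
        calc σ * σ ≤ ‖P v + Q v‖ ^ 2 * ‖v‖ ^ 2 := by nlinarith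
          _ ≤ (1 + ε) * σ * ‖v‖ ^ 2 := mul_le_mul_of_nonneg_right h3 (by positivity)
          _ = _ := by ring
      exact le_of_mul_le_mul_left h7 h0
  -- T v
  set T := (v - P v) + (v - Q v) with hT
  have h8 : ⟪T, v⟫ = ‖v - P v‖ ^ 2 + ‖v - Q v‖ ^ 2 := by
    rw [hT, inner_add_left, hP.inner_compl, hQ.inner_compl]
  have h9 : (1 - ε) * ‖v‖ ^ 2 ≤ ⟪T, v⟫ := by
    rw [h8, hP.pyth, hQ.pyth]; nlinarith
  have h10 : ⟪T, v⟫ ≤ ‖T‖ * ‖v‖ := real_inner_le_norm _ _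
  have h11 : (1 - ε) * ‖v‖ ≤ ‖T‖ := by
    rcases (norm_nonneg v).eq_or_lt with h0 | h0
    · rw [← h0]; simp
    · have : ((1 - ε) * ‖v‖) * ‖v‖ ≤ ‖T‖ * ‖v‖ := by nlinarith
      exact le_of_mul_le_mul_right this h0
  have h12 : (1 - ε) * ⟪T, v⟫ ≤ ‖T‖ ^ 2 := by
    calc (1 - ε) * ⟪T, v⟫ ≤ (1 - ε) * (‖T‖ * ‖v‖) :=
          mul_le_mul_of_nonneg_left h10 (by linarith)
      _ = ‖T‖ * ((1 - ε) * ‖v‖) := by ring
      _ ≤ ‖T‖ * ‖T‖ := mul_le_mul_of_nonneg_left h11 (norm_nonneg _)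
      _ = _ := by ring
  rw [h8, hT, norm_add_sq_real] at h12
  nlinarith

/-- commuting case -/
theorem pair_comm {P Q : E →ₗ[ℝ] E} (hP : IsProj P) (hQ : IsProj Q) (v : E)
    (h : P (Q v) = Q (P v)) (h' : P (Q (P v)) = Q (P v)) : 0 ≤ ⟪v - P v, v - Q v⟫ := by
  have e : ⟪v - P v, v - Q v⟫ = ‖(v - P v) - Q (v - P v)‖ ^ 2 := by
    rw [← hQ.inner_compl]
    have a1 : ⟪v - P v, v - Q v⟫ = ⟪v - P v - Q (v - P v), v⟫ := by
      rw [inner_sub_right, inner_sub_left (v - P v), hQ.symm]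
    rw [a1, inner_sub_right (v - P v - Q (v - P v)), ← hP.symm]
    simp only [map_sub, hP.idem, h, h', sub_self, inner_zero_left, sub_zero]
  rw [e]; positivity

theorem pair_ineq {P Q F : E →ₗ[ℝ] E} (hP : IsProj P) (hQ : IsProj Q) (hF : IsProj F)
    (hFP : ∀ v, F (P v) = P (F v)) (hFQ : ∀ v, F (Q v) = Q (F v)) {ε : ℝ} (hε : 0 ≤ ε)
    (hε1 : ε ≤ 1) (h1 : ∀ w, F w = 0 → ‖Q (P w)‖ ≤ ε * ‖P w‖)
    (h2 : ∀ w, F w = w → P (Q w) = Q (P w)) (v : E) :
    -ε * (‖v - P v‖ ^ 2 + ‖v - Q v‖ ^ 2) ≤ 2 * ⟪v - P v, v - Q v⟫ := by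
  set v0 := F v with hv0
  set v1 := v - F v with hv1
  have e0 : F v0 = v0 := hF.idem v
  have e1 : F v1 = 0 := by rw [hv1, map_sub, hF.idem, sub_self]
  have orth : ∀ a b : E, F a = a → F b = 0 → ⟪a, b⟫ = 0 := fun a b ha hb => by
    rw [← ha, hF.symm, hb, inner_zero_right]
  have hv : v = v0 + v1 := by rw [hv0, hv1]; abel
  have a0 : F (v0 - P v0) = v0 - P v0 := by rw [map_sub, hFP, e0]
  have b0 : F (v0 - Q v0) = v0 - Q v0 := by rw [map_sub, hFQ, e0]
  have a1 : F (v1 - P v1) = 0 := by rw [map_sub, hFP, e1, map_zero, sub_zero]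
  have b1 : F (v1 - Q v1) = 0 := by rw [map_sub, hFQ, e1, map_zero, sub_zero]
  have ea : v - P v = (v0 - P v0) + (v1 - P v1) := by
    conv_lhs => rw [hv]
    rw [map_add]; abel
  have eb : v - Q v = (v0 - Q v0) + (v1 - Q v1) := by
    conv_lhs => rw [hv]
    rw [map_add]; abel
  have c0 := pair_comm hP hQ v0 (h2 v0 e0) (by
    rw [h2 (P v0) (by rw [hFP, e0]), hP.idem])
  have c1 := pair_small hP hQ hε hε1 (LinearMap.ker F) (fun w hw => h1 w hw) v1 e1
  rw [ea, eb, norm_add_sq_real, norm_add_sq_real, inner_add_left, inner_add_right,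
    inner_add_right, orth _ _ a0 a1, orth _ _ b0 b1, orth _ _ a0 b1,
    real_inner_comm (v0 - Q v0) (v1 - P v1), orth _ _ b0 a1]
  nlinarith [mul_nonneg hε (sq_nonneg ‖v0 - P v0‖), mul_nonneg hε (sq_nonneg ‖v0 - Q v0‖)]

end Proj

section Rep

variable {E : Type*} [NormedAddCommGroup E] [InnerProductSpace ℝ E]
variable {G : Type*} [Group G]

/-- orthogonal representation -/
def IsOrth (π : G →* (E →ₗ[ℝ] E)) : Prop := ∀ g v w, ⟪π g v, π g w⟫ = ⟪v, w⟫

theorem rep_mul (π : G →* (E →ₗ[ℝ] E)) (g h : G) (v : E) : π (g * h) v = π g (π h v) := by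
  rw [map_mul]; rfl

theorem rep_one (π : G →* (E →ₗ[ℝ] E)) (v : E) : π 1 v = v := by
  rw [map_one]; rfl

theorem IsOrth.adj {π : G →* (E →ₗ[ℝ] E)} (h : IsOrth π) (g : G) (v w : E) :
    ⟪π g v, w⟫ = ⟪v, π g⁻¹ w⟫ := by
  rw [← h g v, ← rep_mul, mul_inv_cancel, rep_one]

theorem IsOrth.norm_eq {π : G →* (E →ₗ[ℝ] E)} (h : IsOrth π) (g : G) (v : E) :
    ‖π g v‖ = ‖v‖ := by
  have := h g v v
  rw [real_inner_self_eq_norm_sq, real_inner_self_eq_norm_sq] at this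
  exact (pow_left_inj₀ (norm_nonneg _) (norm_nonneg _) two_ne_zero).1 this

variable {Z : Type*} [AddCommGroup Z] [Fintype Z]

/-- `f` is a homomorphism from an additive group -/
def IsHom (f : Z → G) : Prop := ∀ a b, f (a + b) = f a * f b

theorem IsHom.zero {f : Z → G} (hf : IsHom f) : f 0 = 1 := by
  have := hf 0 0
  rw [add_zero] at this
  exact left_eq_mul.mp this

theorem IsHom.neg {f : Z → G} (hf : IsHom f) (a : Z) : f (-a) = (f a)⁻¹ := by
  rw [eq_inv_iff_mul_eq_one, ← hf, neg_add_cancel, hf.zero]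

/-- average of a representation over a finite family -/
def av (π : G →* (E →ₗ[ℝ] E)) (f : Z → G) : E →ₗ[ℝ] E :=
  (Fintype.card Z : ℝ)⁻¹ • ∑ a, π (f a)

theorem av_apply (π : G →* (E →ₗ[ℝ] E)) (f : Z → G) (v : E) :
    av π f v = (Fintype.card Z : ℝ)⁻¹ • ∑ a, π (f a) v := by
  simp [av, LinearMap.sum_apply]

theorem card_pos' : (0 : ℝ) < Fintype.card Z := by
  exact_mod_cast Fintype.card_pos

theorem av_of_fixed (π : G →* (E →ₗ[ℝ] E)) (f : Z → G) {v : E} (h : ∀ a, π (f a) v = v) :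
    av π f v = v := by
  rw [av_apply]
  simp only [h, sum_const, card_univ]
  rw [← Nat.cast_smul_eq_nsmul ℝ, smul_smul, inv_mul_cancel₀ card_pos'.ne', one_smul]

theorem rep_av (π : G →* (E →ₗ[ℝ] E)) {f : Z → G} (hf : IsHom f) (b : Z) (v : E) :
    π (f b) (av π f v) = av π f v := by
  rw [av_apply, map_smul, map_sum]
  congr 1
  refine Fintype.sum_equiv (Equiv.addLeft b) _ _ fun a => ?_
  rw [← rep_mul, ← hf]; rfl

theorem isProj_av {π : G →* (E →ₗ[ℝ] E)} (hπ : IsOrth π) {f : Z → G} (hf : IsHom f) :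
    IsProj (av π f) where
  symm v w := by
    rw [av_apply, av_apply, real_inner_smul_left, real_inner_smul_right, sum_inner, inner_sum]
    congr 1
    refine Fintype.sum_equiv (Equiv.neg Z) _ _ fun a => ?_
    rw [hπ.adj, ← hf.neg]; rfl
  idem v := av_of_fixed π f fun a => rep_av π hf a v

theorem rep_comm_av (π : G →* (E →ₗ[ℝ] E)) {f : Z → G} {g : G} (h : ∀ a, Commute g (f a)) (v : E) :
    π g (av π f v) = av π f (π g v) := by
  rw [av_apply, av_apply, map_smul, map_sum]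
  congr 1
  refine sum_congr rfl fun a _ => ?_
  rw [← rep_mul, ← rep_mul, (h a).eq]

theorem av_comm_av (π : G →* (E →ₗ[ℝ] E)) {f f' : Z → G} (h : ∀ a b, Commute (f a) (f' b))
    (v : E) : av π f (av π f' v) = av π f' (av π f v) := by
  rw [av_apply π f, av_apply π f v, map_smul, map_sum]
  congr 1
  exact sum_congr rfl fun a _ => rep_comm_av π (h a) v

theorem fixed_of_av (π : G →* (E →ₗ[ℝ] E)) {f : Z → G} (hf : IsHom f) {v : E}
    (h : av π f v = v) (a : Z) : π (f a) v = v := by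
  conv_lhs => rw [← h]
  rw [rep_av π hf, h]

end Rep

/-- parameter group -/
abbrev Z3 : Type := Fin 3 → ZMod 5

instance fact5 : Fact (Nat.Prime 5) := ⟨by norm_num⟩

section Pair

variable {E : Type*} [NormedAddCommGroup E] [InnerProductSpace ℝ E]
variable {G : Type*} [Group G]

/-- The two families generate a two-step nilpotent group, the second acting via one coordinate. -/
def GoodPair (x y : Z3 → G) : Prop :=
  ∃ z : Z3 → G, IsHom z ∧ (∀ a b, x a * y b = y b * x a * z (b 0 • a)) ∧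
    (∀ c a, Commute (z c) (x a)) ∧ (∀ c b, Commute (z c) (y b))

theorem card_filter_Z3 : (univ.filter fun b : Z3 => b 0 = 0).card = 25 := by decide +kernel

theorem card_Z3 : Fintype.card Z3 = 125 := by simp [ZMod.card]

theorem goodPair_ineq {π : G →* (E →ₗ[ℝ] E)} (hπ : IsOrth π) {x y : Z3 → G} (hx : IsHom x)
    (hy : IsHom y) (h : GoodPair x y) (v : E) :
    -(9 / 20) * (‖v - av π x v‖ ^ 2 + ‖v - av π y v‖ ^ 2) ≤
      2 * ⟪v - av π x v, v - av π y v⟫ := by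
  obtain ⟨z, hz, hxy, hzx, hzy⟩ := h
  refine pair_ineq (isProj_av hπ hx) (isProj_av hπ hy) (isProj_av hπ hz)
    (av_comm_av π hzx) (av_comm_av π hzy) (by norm_num) (by norm_num) ?_ ?_ v
  · intro w hw
    set u := av π x w with hu
    have hFu : av π z u = 0 := by rw [hu, av_comm_av π hzx, hw, map_zero]
    have hxu : ∀ a, π (x a) u = u := fun a => rep_av π hx a w
    have key : ∀ b : Z3, b 0 ≠ 0 → ⟪π (y b) u, u⟫ = 0 := by
      intro b hb
      have k1 : ∀ a, ⟪π (y b) u, u⟫ = ⟪π (y b) (π (z (b 0 • a)) u), u⟫ := by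
        intro a
        rw [← hπ (x a) (π (y b) u) u, hxu, ← rep_mul, hxy, mul_assoc, ← (hzx _ _).eq,
          rep_mul, rep_mul, hxu]
      have k2 : ∑ a : Z3, π (z (b 0 • a)) u = ∑ a : Z3, π (z a) u :=
        Fintype.sum_equiv (MulAction.toPerm (Units.mk0 (b 0) hb)) _ _ fun a => rfl
      have k3 : ∑ a : Z3, π (z a) u = 0 := by
        rw [av_apply, smul_eq_zero] at hFu
        exact hFu.resolve_left (inv_ne_zero card_pos'.ne')
      have k4 : ∑ _a : Z3, ⟪π (y b) u, u⟫ = 0 := by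
        rw [sum_congr rfl fun a _ => k1 a, ← sum_inner, ← map_sum, k2, k3, map_zero,
          inner_zero_left]
      rw [sum_const, card_univ, nsmul_eq_mul, mul_eq_zero] at k4
      exact k4.resolve_left card_pos'.ne'
    have k5 : ‖av π y u‖ ^ 2 ≤ 1 / 5 * ‖u‖ ^ 2 := by
      rw [← (isProj_av hπ hy).inner_self, av_apply, real_inner_smul_left, sum_inner,
        ← sum_filter_add_sum_filter_not univ (fun b : Z3 => b 0 = 0),
        sum_eq_zero (s := univ.filter fun b : Z3 => ¬ b 0 = 0)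
          (fun b hb => key b (mem_filter.1 hb).2), add_zero, card_Z3]
      have : ∑ b ∈ univ.filter (fun b : Z3 => b 0 = 0), ⟪π (y b) u, u⟫ ≤
          (univ.filter fun b : Z3 => b 0 = 0).card • ‖u‖ ^ 2 := by
        refine sum_le_card_nsmul _ _ _ fun b _ => ?_
        refine (real_inner_le_norm _ _).trans ?_
        rw [hπ.norm_eq, sq]
      rw [card_filter_Z3, nsmul_eq_mul] at this
      push_cast at this ⊢
      nlinarith
    refine le_of_sq_le_sq ?_ (by positivity)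
    nlinarith [sq_nonneg ‖u‖]
  · intro w hw
    have hzw := fixed_of_av π hz hw
    rw [av_apply π x, av_apply π x, map_smul, map_sum]
    congr 1
    refine sum_congr rfl fun a _ => ?_
    rw [av_apply, av_apply, map_smul, map_sum]
    congr 1
    refine sum_congr rfl fun b _ => ?_
    rw [← rep_mul, hxy, rep_mul, rep_mul, hzw]

/-- Three families, pairwise good. -/
structure IsTriple (x : Fin 3 → Z3 → G) : Prop where
  hom : ∀ i, IsHom (x i)
  p01 : GoodPair (x 0) (x 1)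
  p20 : GoodPair (x 2) (x 0)
  p21 : GoodPair (x 2) (x 1)

/-- the Laplacian -/
def lap (π : G →* (E →ₗ[ℝ] E)) (x : Fin 3 → Z3 → G) : E →ₗ[ℝ] E :=
  ∑ i, (LinearMap.id - av π (x i))

theorem lap_apply (π : G →* (E →ₗ[ℝ] E)) (x : Fin 3 → Z3 → G) (v : E) :
    lap π x v = (v - av π (x 0) v) + (v - av π (x 1) v) + (v - av π (x 2) v) := by
  rw [lap, Fin.sum_univ_three]; rfl

variable {π : G →* (E →ₗ[ℝ] E)} {x : Fin 3 → Z3 → G}

theorem lap_symm (hπ : IsOrth π) (hx : IsTriple x) (v w : E) :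
    ⟪lap π x v, w⟫ = ⟪v, lap π x w⟫ := by
  simp only [lap_apply, inner_add_left, inner_add_right, inner_sub_left, inner_sub_right,
    (isProj_av hπ (hx.hom _)).symm]

theorem inner_lap (hπ : IsOrth π) (hx : IsTriple x) (v : E) :
    ⟪lap π x v, v⟫ =
      ‖v - av π (x 0) v‖ ^ 2 + ‖v - av π (x 1) v‖ ^ 2 + ‖v - av π (x 2) v‖ ^ 2 := by
  rw [lap_apply, inner_add_left, inner_add_left, (isProj_av hπ (hx.hom _)).inner_compl,
    (isProj_av hπ (hx.hom _)).inner_compl, (isProj_av hπ (hx.hom _)).inner_compl]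

theorem inner_lap_nonneg (hπ : IsOrth π) (hx : IsTriple x) (v : E) : 0 ≤ ⟪lap π x v, v⟫ := by
  rw [inner_lap hπ hx]; positivity

theorem gap (hπ : IsOrth π) (hx : IsTriple x) (v : E) :
    1 / 10 * ⟪lap π x v, v⟫ ≤ ‖lap π x v‖ ^ 2 := by
  have h01 := goodPair_ineq hπ (hx.hom 0) (hx.hom 1) hx.p01 v
  have h20 := goodPair_ineq hπ (hx.hom 2) (hx.hom 0) hx.p20 v
  have h21 := goodPair_ineq hπ (hx.hom 2) (hx.hom 1) hx.p21 v
  rw [inner_lap hπ hx, lap_apply, norm_add_sq_real, norm_add_sq_real, inner_add_left,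
    real_inner_comm (v - av π (x 2) v), real_inner_comm (v - av π (x 2) v)]
  nlinarith

theorem fixed_of_inner_lap (hπ : IsOrth π) (hx : IsTriple x) {v : E} (h : ⟪lap π x v, v⟫ ≤ 0)
    (i : Fin 3) (a : Z3) : π (x i a) v = v := by
  rw [inner_lap hπ hx] at h
  have h0 := sq_nonneg ‖v - av π (x 0) v‖
  have h1 := sq_nonneg ‖v - av π (x 1) v‖
  have h2 := sq_nonneg ‖v - av π (x 2) v‖
  have : ‖v - av π (x i) v‖ ^ 2 = 0 := by
    have hi : i = 0 ∨ i = 1 ∨ i = 2 := by revert i; decide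
    rcases hi with rfl | rfl | rfl <;> linarith
  rw [pow_eq_zero_iff two_ne_zero, norm_eq_zero, sub_eq_zero] at this
  exact fixed_of_av π (hx.hom i) this.symm a

theorem lap_of_fixed {v : E} (h : ∀ i a, π (x i a) v = v) : lap π x v = 0 := by
  rw [lap_apply, av_of_fixed π _ (h 0), av_of_fixed π _ (h 1), av_of_fixed π _ (h 2)]
  simp

/-- Cauchy-Schwarz for a nonnegative symmetric operator -/
theorem cs_form {T : E →ₗ[ℝ] E} (hs : ∀ v w, ⟪T v, w⟫ = ⟪v, T w⟫) (hp : ∀ v, 0 ≤ ⟪T v, v⟫)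
    (v w : E) : ⟪T v, w⟫ ^ 2 ≤ ⟪T v, v⟫ * ⟪T w, w⟫ := by
  have key : ∀ t : ℝ, 0 ≤ ⟪T w, w⟫ * (t * t) + 2 * ⟪T v, w⟫ * t + ⟪T v, v⟫ := by
    intro t
    have := hp (v + t • w)
    rw [map_add, map_smul, inner_add_left, inner_add_right, inner_add_right, real_inner_smul_left,
      real_inner_smul_left, real_inner_smul_right, real_inner_smul_right, hs w v,
      real_inner_comm (T v) w] at this
    nlinarith
  have := discrim_le_zero key
  rw [discrim] at this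
  nlinarith

/-- A vector realising the bottom of the spectrum below the gap is fixed. -/
theorem fixed_of_rayleigh (hπ : IsOrth π) (hx : IsTriple x) {ξ : E} {r : ℝ} (hr : r < 1 / 10)
    (hlow : ∀ v, r * ‖v‖ ^ 2 ≤ ⟪lap π x v, v⟫) (hξ : ⟪lap π x ξ, ξ⟫ ≤ r * ‖ξ‖ ^ 2)
    (i : Fin 3) (a : Z3) : π (x i a) ξ = ξ := by
  let T : E →ₗ[ℝ] E := lap π x - r • LinearMap.id
  have hT : ∀ v, T v = lap π x v - r • v := fun v => rfl
  have hs : ∀ v w, ⟪T v, w⟫ = ⟪v, T w⟫ := fun v w => by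
    rw [hT, hT, inner_sub_left, inner_sub_right, lap_symm hπ hx, real_inner_smul_left,
      real_inner_smul_right]
  have hp : ∀ v, 0 ≤ ⟪T v, v⟫ := fun v => by
    rw [hT, inner_sub_left, real_inner_smul_left, real_inner_self_eq_norm_sq]
    linarith [hlow v]
  have h0 : ⟪T ξ, ξ⟫ = 0 := by
    refine le_antisymm ?_ (hp ξ)
    rw [hT, inner_sub_left, real_inner_smul_left, real_inner_self_eq_norm_sq]
    linarith
  have h1 := cs_form hs hp ξ (T ξ)
  rw [h0, zero_mul, real_inner_self_eq_norm_sq] at h1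
  have h2 : T ξ = 0 := by
    have : ‖T ξ‖ ^ 2 = 0 := by nlinarith [sq_nonneg (‖T ξ‖ ^ 2)]
    rwa [pow_eq_zero_iff two_ne_zero, norm_eq_zero] at this
  rw [hT, sub_eq_zero] at h2
  have h3 := gap hπ hx ξ
  have h4 := inner_lap_nonneg hπ hx ξ
  refine fixed_of_inner_lap hπ hx ?_ i a
  rw [h2, real_inner_smul_left, real_inner_self_eq_norm_sq] at h3 h4 ⊢
  rw [norm_smul, mul_pow, Real.norm_eq_abs, sq_abs] at h3
  nlinarith

/-- In finite dimension: orthogonal decomposition with respect to the fixed vectors. -/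
theorem exists_fixed_part [FiniteDimensional ℝ E] (hπ : IsOrth π) (hx : IsTriple x) (v : E) :
    ∃ v0 : E, (∀ i a, π (x i a) v0 = v0) ∧ ⟪v, v0⟫ = ‖v0‖ ^ 2 ∧
      1 / 10 * (‖v‖ ^ 2 - ‖v0‖ ^ 2) ≤ ⟪lap π x v, v⟫ := by
  let K : Submodule ℝ E := LinearMap.range (lap π x)
  obtain ⟨w, hw, v0, hv0, rfl⟩ := K.exists_add_mem_mem_orthogonal v
  obtain ⟨s, rfl⟩ := hw
  have hl : lap π x v0 = 0 := by
    rw [← inner_self_eq_zero (𝕜 := ℝ), lap_symm hπ hx, real_inner_comm]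
    exact hv0 _ ⟨_, rfl⟩
  have ho : ⟪lap π x s, v0⟫ = 0 := hv0 _ ⟨_, rfl⟩
  refine ⟨v0, fixed_of_inner_lap hπ hx (by rw [hl, inner_zero_left]), ?_, ?_⟩
  · rw [inner_add_left, ho, zero_add, real_inner_self_eq_norm_sq]
  · set w := lap π x s with hw
    rw [norm_add_sq_real, ho, map_add, hl, add_zero, inner_add_right, lap_symm hπ hx w v0, hl,
      inner_zero_right]
    have h1 := cs_form (lap_symm hπ hx) (inner_lap_nonneg hπ hx) s w
    have h2 := gap hπ hx s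
    have h3 := inner_lap_nonneg hπ hx w
    rw [← hw, real_inner_self_eq_norm_sq] at h1
    rw [← hw] at h2
    rcases (sq_nonneg ‖w‖).eq_or_lt with h0 | h0
    · nlinarith
    · have h4 : ‖w‖ ^ 2 * (1 / 10 * ‖w‖ ^ 2) ≤ ‖w‖ ^ 2 * ⟪lap π x w, w⟫ := by
        nlinarith [mul_le_mul_of_nonneg_right h2 h3]
      have := le_of_mul_le_mul_left h4 h0
      linarith

end Pair

end Crest.Agent.R73
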