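import Crest.Agent.R73.Group

/-!
The spectral gap for unitary representations of the integral affine group.
-/

set_option autoImplicit false
set_option linter.unusedSectionVars false

noncomputable section

namespace Crest.Agent.R73

open Finset
open scoped InnerProductSpace

variable {E : Type*} [NormedAddCommGroup E] [InnerProductSpace ℂ E]

/-- unitary representation -/
def IsUni (π : LL →* (E →ₗ[ℂ] E)) : Prop := ∀ g v w, ⟪π g v, π g w⟫_ℂ = ⟪v, w⟫_ℂ

/-- the quadratic form of the Markov operator -/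
def QQ (π : LL →* (E →ₗ[ℂ] E)) (v : E) : ℝ := ∑ i, ∑ a, (⟪π (gen i a) v, v⟫_ℂ).re

/-- the subgroup generated by the triple -/
def Lam : Subgroup LL := Subgroup.closure (Set.range fun p : Fin 3 × Z3 => gen p.1 p.2)

theorem gen_mem_Lam (i : Fin 3) (a : Z3) : gen i a ∈ Lam := Subgroup.subset_closure ⟨(i, a), rfl⟩

theorem fixed_Lam {π : LL →* (E →ₗ[ℂ] E)} {v : E} (h : ∀ i a, π (gen i a) v = v) {g : LL}
    (hg : g ∈ Lam) : π g v = v := by
  induction hg using Subgroup.closure_induction with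
  | mem x hx => obtain ⟨p, rfl⟩ := hx; exact h _ _
  | one => rw [map_one]; rfl
  | mul x y _ _ hx hy => rw [map_mul, Module.End.mul_apply, hy, hx]
  | inv x _ hx =>
    conv_lhs => rw [← hx]
    rw [← Module.End.mul_apply, ← map_mul, inv_mul_cancel, map_one]; rfl

/-- the underlying real space -/
def Re (E : Type*) : Type _ := E

instance : NormedAddCommGroup (Re E) := inferInstanceAs (NormedAddCommGroup E)

instance : InnerProductSpace ℝ (Re E) := InnerProductSpace.complexToReal (G := E)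

/-- identity map -/
def toRe (v : E) : Re E := v

theorem toRe_surj (v : Re E) : ∃ w : E, toRe w = v := ⟨v, rfl⟩

theorem inner_toRe (v w : E) : ⟪toRe v, toRe w⟫_ℝ = (⟪v, w⟫_ℂ).re := rfl

theorem norm_toRe (v : E) : ‖toRe v‖ = ‖v‖ := rfl

/-- the underlying real representation -/
def realRep (π : LL →* (E →ₗ[ℂ] E)) : LL →* (Re E →ₗ[ℝ] Re E) where
  toFun g :=
    { toFun := fun v => toRe (π g (show E from v))
      map_add' := fun v w => map_add (π g) (show E from v) (show E from w)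
      map_smul' := fun r v => map_smul (π g) (r : ℂ) (show E from v) }
  map_one' := by ext v; exact congrArg (fun f : E →ₗ[ℂ] E => f v) (map_one π)
  map_mul' g h := by ext v; exact congrArg (fun f : E →ₗ[ℂ] E => f v) (map_mul π g h)

theorem realRep_apply (π : LL →* (E →ₗ[ℂ] E)) (g : LL) (v : E) :
    realRep π g (toRe v) = toRe (π g v) := rfl

theorem isOrth_realRep {π : LL →* (E →ₗ[ℂ] E)} (h : IsUni π) : IsOrth (realRep π) :=
  fun g v w => congrArg Complex.re (h g v w)

theorem inner_lap_realRep (π : LL →* (E →ₗ[ℂ] E)) (v : E) :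
    ⟪lap (realRep π) gen (toRe v), toRe v⟫_ℝ = 3 * ‖v‖ ^ 2 - QQ π v / 125 := by
  rw [lap_apply, QQ, Fin.sum_univ_three]
  simp only [inner_add_left, inner_sub_left, av_apply, real_inner_smul_left, sum_inner,
    real_inner_self_eq_norm_sq, realRep_apply, inner_toRe, norm_toRe, card_Z3]
  push_cast
  ring

variable {π : LL →* (E →ₗ[ℂ] E)}

theorem fixedC_of_top (hπ : IsUni π) {v : E} (h : 375 * ‖v‖ ^ 2 ≤ QQ π v) {g : LL}
    (hg : g ∈ Lam) : π g v = v := by
  refine fixed_Lam (fun i a => ?_) hg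
  exact fixed_of_inner_lap (isOrth_realRep hπ) isTriple_gen (v := toRe v)
    (by rw [inner_lap_realRep]; linarith) i a

theorem fixedC_of_rayleigh (hπ : IsUni π) {ξ : E} {r : ℝ} (hr : 363 ≤ r)
    (hup : ∀ v, QQ π v ≤ r * ‖v‖ ^ 2) (hξ : r * ‖ξ‖ ^ 2 ≤ QQ π ξ) {g : LL}
    (hg : g ∈ Lam) : π g ξ = ξ := by
  refine fixed_Lam (fun i a => ?_) hg
  refine fixed_of_rayleigh (isOrth_realRep hπ) isTriple_gen (ξ := toRe ξ) (r := 3 - r / 125)
    (by linarith) (fun v => ?_) ?_ i a
  · obtain ⟨w, rfl⟩ := toRe_surj v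
    rw [inner_lap_realRep, norm_toRe]
    linarith [hup w]
  · rw [inner_lap_realRep, norm_toRe]; linarith

theorem exists_fixedC_part [FiniteDimensional ℂ E] (hπ : IsUni π) (v : E) :
    ∃ v0 : E, (∀ g ∈ Lam, π g v0 = v0) ∧ (⟪v, v0⟫_ℂ).re = ‖v0‖ ^ 2 ∧
      QQ π v ≤ 725 / 2 * ‖v‖ ^ 2 + 25 / 2 * ‖v0‖ ^ 2 := by
  have : FiniteDimensional ℝ (Re E) := inferInstanceAs (FiniteDimensional ℝ E)
  obtain ⟨v0, h1, h2, h3⟩ := exists_fixed_part (isOrth_realRep hπ) isTriple_gen (toRe v)
  obtain ⟨w, rfl⟩ := toRe_surj (E := E) v0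
  refine ⟨w, fun g hg => fixed_Lam (π := π) (v := w) (fun i a => h1 i a) hg, h2, ?_⟩
  rw [inner_lap_realRep, norm_toRe, norm_toRe] at h3
  linarith

theorem QQ_of_fixed {v : E} (h : ∀ g ∈ Lam, π g v = v) : QQ π v = 375 * ‖v‖ ^ 2 := by
  simp only [QQ, h _ (gen_mem_Lam _ _), sum_const, card_univ, card_Z3, Fintype.card_fin,
    nsmul_eq_mul]
  rw [← RCLike.re_to_complex, ← norm_sq_eq_re_inner]
  push_cast; ring

end Crest.Agent.R73
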