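import Crest.Agent.R73.Gap

/-!
The affine groups, the generating triple and the ambient countable group.
-/

set_option autoImplicit false
set_option linter.unusedSectionVars false

noncomputable section

namespace Crest.Agent.R73

open Matrix Polynomial

/-- the affine group of `R ^ 3` -/
@[ext] structure Aff (R : Type) [CommRing R] where
  /-- translation part -/
  v : Fin 3 → R
  /-- linear part -/
  A : GL (Fin 3) R

namespace Aff

variable {R : Type} [CommRing R]

instance : Mul (Aff R) := ⟨fun g h => ⟨g.v + (g.A : Matrix _ _ R) *ᵥ h.v, g.A * h.A⟩⟩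
instance : One (Aff R) := ⟨⟨0, 1⟩⟩
instance : Inv (Aff R) := ⟨fun g => ⟨-(((g.A⁻¹ : GL (Fin 3) R) : Matrix _ _ R) *ᵥ g.v), g.A⁻¹⟩⟩

@[simp] theorem mul_v (g h : Aff R) : (g * h).v = g.v + (g.A : Matrix _ _ R) *ᵥ h.v := rfl
@[simp] theorem mul_A (g h : Aff R) : (g * h).A = g.A * h.A := rfl
@[simp] theorem one_v : (1 : Aff R).v = 0 := rfl
@[simp] theorem one_A : (1 : Aff R).A = 1 := rfl
theorem inv_v (g : Aff R) : (g⁻¹).v = -(((g.A⁻¹ : GL (Fin 3) R) : Matrix _ _ R) *ᵥ g.v) := rfl
theorem inv_A (g : Aff R) : (g⁻¹).A = g.A⁻¹ := rfl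

instance : Group (Aff R) :=
  Group.ofLeftAxioms
    (fun a b c => Aff.ext (by simp [mulVec_add, add_assoc]) (by simp [mul_assoc]))
    (fun a => Aff.ext (by simp) (by simp))
    (fun a => Aff.ext (by rw [mul_v, inv_v, inv_A, one_v, neg_add_cancel])
      (by rw [mul_A, inv_A, one_A, inv_mul_cancel]))

/-- translations -/
def tr (v : Fin 3 → R) : Aff R := ⟨v, 1⟩

/-- linear maps -/
def lin (A : GL (Fin 3) R) : Aff R := ⟨0, A⟩

@[simp] theorem tr_v (v : Fin 3 → R) : (tr v).v = v := rfl
@[simp] theorem tr_A (v : Fin 3 → R) : (tr v).A = 1 := rfl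
@[simp] theorem lin_v (A : GL (Fin 3) R) : (lin A).v = 0 := rfl
@[simp] theorem lin_A (A : GL (Fin 3) R) : (lin A).A = A := rfl

theorem tr_add (v w : Fin 3 → R) : tr (v + w) = tr v * tr w := Aff.ext (by simp) (by simp)

theorem tr_zero : tr (0 : Fin 3 → R) = 1 := rfl

theorem lin_mul (A B : GL (Fin 3) R) : lin (A * B) = lin A * lin B := Aff.ext (by simp) (by simp)

theorem lin_mul_tr (A : GL (Fin 3) R) (v : Fin 3 → R) :
    lin A * tr v = tr ((A : Matrix _ _ R) *ᵥ v) * lin A := Aff.ext (by simp) (by simp)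

theorem eq_tr_mul_lin (g : Aff R) : g = tr g.v * lin g.A := Aff.ext (by simp) (by simp)

/-- base change -/
def map {S : Type} [CommRing S] (f : R →+* S) : Aff R →* Aff S where
  toFun g := ⟨f ∘ g.v, Matrix.GeneralLinearGroup.map f g.A⟩
  map_one' := Aff.ext (by ext i; simp) (by simp)
  map_mul' g h := Aff.ext (by
    ext i
    simp [Matrix.mulVec, dotProduct]) (by simp)

instance [Countable R] : Countable (Aff R) := by
  have : Function.Injective (fun g : Aff R => (g.v, fun i j : Fin 3 => g.A.val i j)) := by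
    intro g h e
    simp only [Prod.mk.injEq] at e
    exact Aff.ext e.1 (Units.ext e.2)
  exact this.countable

end Aff

/-- elementary matrices -/
def el {R : Type} [CommRing R] (i j : Fin 3) (h : i ≠ j) (r : R) : GL (Fin 3) R :=
  ⟨transvection i j r, transvection i j (-r),
    by rw [transvection_mul_transvection_same _ _ h, add_neg_cancel, transvection_zero],
    by rw [transvection_mul_transvection_same _ _ h, neg_add_cancel, transvection_zero]⟩

section el

variable {R : Type} [CommRing R]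

theorem el_val (i j : Fin 3) (h : i ≠ j) (r : R) :
    ((el i j h r : GL (Fin 3) R) : Matrix _ _ R) = transvection i j r := rfl

theorem el_add (i j : Fin 3) (h : i ≠ j) (r s : R) : el i j h (r + s) = el i j h r * el i j h s :=
  Units.ext (transvection_mul_transvection_same _ _ h r s).symm

theorem el_mulVec (i j : Fin 3) (h : i ≠ j) (r : R) (v : Fin 3 → R) :
    ((el i j h r : GL (Fin 3) R) : Matrix _ _ R) *ᵥ v = v + Pi.single i (r * v j) := by
  rw [el_val, transvection, add_mulVec, one_mulVec, single_mulVec]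
  rfl

theorem el_comm (i j k : Fin 3) (hij : i ≠ j) (hik : i ≠ k) (hkj : k ≠ j) (r s : R) :
    el i k hik r * el k j hkj s = el k j hkj s * el i k hik r * el i j hij (r * s) := by
  apply Units.ext
  simp only [Units.val_mul, el_val, transvection, mul_add, add_mul, one_mul, mul_one,
    single_mul_single_same]
  rw [single_mul_single_of_ne _ _ _ _ hij.symm, single_mul_single_of_ne _ _ _ _ hij.symm,
    single_mul_single_of_ne _ _ _ _ hik.symm]
  simp only [zero_mul, add_zero]
  abel

theorem el_commute (i j k l : Fin 3) (hij : i ≠ j) (hkl : k ≠ l) (h1 : j ≠ k) (h2 : l ≠ i)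
    (r s : R) : el i j hij r * el k l hkl s = el k l hkl s * el i j hij r := by
  apply Units.ext
  simp only [Units.val_mul, el_val, transvection, mul_add, add_mul, one_mul, mul_one]
  rw [single_mul_single_of_ne _ _ _ _ h1, single_mul_single_of_ne _ _ _ _ h2]
  abel

end el

/-- the coefficient ring -/
abbrev RR : Type := (ZMod 5)[X]

/-- the module -/
abbrev VV : Type := Fin 3 → RR

/-- the integral affine group -/
abbrev LL : Type := Aff RR

theorem fin3_cases (i : Fin 3) : i = 0 ∨ i = 1 ∨ i = 2 := by revert i; decide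

theorem ne01 : (0 : Fin 3) ≠ 1 := by decide
theorem ne02 : (0 : Fin 3) ≠ 2 := by decide
theorem ne12 : (1 : Fin 3) ≠ 2 := by decide
theorem ne10 : (1 : Fin 3) ≠ 0 := by decide
theorem ne20 : (2 : Fin 3) ≠ 0 := by decide
theorem ne21 : (2 : Fin 3) ≠ 1 := by decide

/-- the polynomial `a₀ + a₁ X` -/
def lp1 (a : Z3) : RR := C (a 0) + C (a 1) * X

theorem lp1_add (a b : Z3) : lp1 (a + b) = lp1 a + lp1 b := by
  simp only [lp1, Pi.add_apply, C_add]; ring

theorem lp1_smul (c : ZMod 5) (a : Z3) : lp1 (c • a) = lp1 a * C c := by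
  simp only [lp1, Pi.smul_apply, smul_eq_mul, C_mul]; ring

/-- first family -/
def g0 (a : Z3) : LL := Aff.lin (el 0 1 ne01 (C (a 0)))
/-- second family -/
def g1 (a : Z3) : LL := Aff.lin (el 1 2 ne12 (C (a 0)))
/-- third family -/
def g2 (a : Z3) : LL := ⟨Pi.single 2 (C (a 2)), el 2 0 ne20 (lp1 a)⟩

/-- the generating triple -/
def gen : Fin 3 → Z3 → LL := ![g0, g1, g2]

theorem isTriple_gen : IsTriple gen where
  hom i := by
    have hi : i = 0 ∨ i = 1 ∨ i = 2 := by revert i; decide
    rcases hi with rfl | rfl | rfl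
    · intro a b
      change g0 (a + b) = g0 a * g0 b
      rw [g0, g0, g0, ← Aff.lin_mul, ← el_add, ← C_add]; rfl
    · intro a b
      change g1 (a + b) = g1 a * g1 b
      rw [g1, g1, g1, ← Aff.lin_mul, ← el_add, ← C_add]; rfl
    · intro a b
      change g2 (a + b) = g2 a * g2 b
      refine Aff.ext ?_ ?_
      · simp only [g2, Aff.mul_v, el_mulVec]
        ext1 i
        fin_cases i <;> simp
      · simp only [g2, Aff.mul_A, lp1_add, el_add]
  p01 := by
    refine ⟨fun c => Aff.lin (el 0 2 ne02 (C (c 0))), fun a b => ?_, fun a b => ?_,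
      fun c a => ?_, fun c b => ?_⟩
    · rw [← Aff.lin_mul, ← el_add, ← C_add]; rfl
    · change g0 a * g1 b = g1 b * g0 a * _
      rw [g0, g1, ← Aff.lin_mul, ← Aff.lin_mul, ← Aff.lin_mul, el_comm 0 2 1 ne02, ← C_mul,
        mul_comm (a 0)]; rfl
    · change _ * g0 a = g0 a * _
      rw [g0, ← Aff.lin_mul, ← Aff.lin_mul, el_commute _ _ _ _ _ _ ne20 ne10]
    · change _ * g1 b = g1 b * _
      rw [g1, ← Aff.lin_mul, ← Aff.lin_mul, el_commute _ _ _ _ _ _ ne21 ne20]
  p20 := by
    refine ⟨fun c => Aff.lin (el 2 1 ne21 (lp1 c)), fun a b => ?_, fun a b => ?_,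
      fun c a => ?_, fun c b => ?_⟩
    · rw [← Aff.lin_mul, ← el_add, ← lp1_add]
    · change g2 a * g0 b = g0 b * g2 a * _
      refine Aff.ext ?_ ?_
      · simp only [g2, g0, Aff.mul_v, Aff.lin_v, Aff.lin_A, el_mulVec, mulVec_zero]
        ext1 i
        fin_cases i <;> simp
      · simp only [g2, g0, Aff.mul_A, Aff.lin_A]
        rw [el_comm 2 1 0 ne21, lp1_smul]
    · change _ * g2 a = g2 a * _
      refine Aff.ext ?_ ?_
      · simp only [g2, Aff.mul_v, Aff.lin_v, Aff.lin_A, el_mulVec, mulVec_zero]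
        ext1 i
        fin_cases i <;> simp
      · simp only [g2, Aff.mul_A, Aff.lin_A]
        rw [el_commute _ _ _ _ _ _ ne12 ne02]
    · change _ * g0 b = g0 b * _
      rw [g0, ← Aff.lin_mul, ← Aff.lin_mul, el_commute _ _ _ _ _ _ ne10 ne12]
  p21 := by
    refine ⟨fun c => ⟨Pi.single 1 (-C (c 2)), el 1 0 ne10 (-lp1 c)⟩, fun a b => ?_, fun a b => ?_,
      fun c a => ?_, fun c b => ?_⟩
    · refine Aff.ext ?_ ?_
      · simp only [Aff.mul_v, el_mulVec]
        ext1 i
        fin_cases i <;> simp [add_comm]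
      · simp only [Aff.mul_A, lp1_add, neg_add, el_add]
    · change g2 a * g1 b = g1 b * g2 a * _
      refine Aff.ext ?_ ?_
      · simp only [g2, g1, Aff.mul_v, Aff.mul_A, Aff.lin_v, Aff.lin_A, Units.val_mul,
          ← mulVec_mulVec, el_mulVec, mulVec_zero]
        ext1 i
        fin_cases i <;> simp
      · simp only [g2, g1, Aff.mul_A, Aff.lin_A]
        rw [el_comm 1 0 2 ne10, mul_assoc _ (el 1 0 ne10 _), ← el_add, lp1_smul, mul_comm (lp1 a),
          add_neg_cancel]
        apply Units.ext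
        simp [el_val]
    · change _ * g2 a = g2 a * _
      refine Aff.ext ?_ ?_
      · simp only [g2, Aff.mul_v, el_mulVec]
        ext1 i
        fin_cases i <;> simp
      · simp only [g2, Aff.mul_A]
        rw [el_commute _ _ _ _ _ _ ne02 ne01]
    · change _ * g1 b = g1 b * _
      refine Aff.ext ?_ ?_
      · simp only [g1, Aff.mul_v, Aff.lin_v, Aff.lin_A, el_mulVec, mulVec_zero]
        ext1 i
        fin_cases i <;> simp
      · simp only [g1, Aff.mul_A, Aff.lin_A]
        rw [el_commute _ _ _ _ _ _ ne01 ne21]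

section Generation

variable {S : Subgroup LL}

theorem el_comm_mem {i j k : Fin 3} (hij : i ≠ j) (hik : i ≠ k) (hkj : k ≠ j) {r s : RR}
    (h1 : Aff.lin (el i k hik r) ∈ S) (h2 : Aff.lin (el k j hkj s) ∈ S) :
    Aff.lin (el i j hij (r * s)) ∈ S := by
  have h3 := S.mul_mem h1 h2
  rw [← Aff.lin_mul, el_comm i j k hij, Aff.lin_mul, Aff.lin_mul] at h3
  exact (S.mul_mem_cancel_left (S.mul_mem h2 h1)).1 h3

theorem third (i j : Fin 3) (h : i ≠ j) : ∃ k, i ≠ k ∧ k ≠ j := by
  revert i j; decide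

theorem el_mem (hS : ∀ i a, gen i a ∈ S) (i j : Fin 3) (h : i ≠ j) (r : RR) :
    Aff.lin (el i j h r) ∈ S := by
  have c01 : ∀ a : ZMod 5, Aff.lin (el 0 1 ne01 (C a)) ∈ S := fun a => hS 0 (fun _ => a)
  have c12 : ∀ a : ZMod 5, Aff.lin (el 1 2 ne12 (C a)) ∈ S := fun a => hS 1 (fun _ => a)
  have c20 : ∀ a : ZMod 5, Aff.lin (el 2 0 ne20 (C a)) ∈ S := fun a => by
    have := hS 2 ![a, 0, 0]
    convert this using 1
    change _ = g2 _
    refine Aff.ext ?_ ?_ <;> simp [g2, lp1]
  have x20 : Aff.lin (el 2 0 ne20 X) ∈ S := by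
    have := hS 2 ![0, 1, 0]
    convert this using 1
    change _ = g2 _
    refine Aff.ext ?_ ?_ <;> simp [g2, lp1]
  have c02 : ∀ a : ZMod 5, Aff.lin (el 0 2 ne02 (C a)) ∈ S := fun a => by
    simpa using el_comm_mem ne02 ne01 ne12 (c01 a) (c12 1)
  have c10 : ∀ a : ZMod 5, Aff.lin (el 1 0 ne10 (C a)) ∈ S := fun a => by
    simpa using el_comm_mem ne10 ne12 ne20 (c12 a) (c20 1)
  have c21 : ∀ a : ZMod 5, Aff.lin (el 2 1 ne21 (C a)) ∈ S := fun a => by
    simpa using el_comm_mem ne21 ne20 ne01 (c20 a) (c01 1)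
  have x21 : Aff.lin (el 2 1 ne21 X) ∈ S := by
    simpa using el_comm_mem ne21 ne20 ne01 x20 (c01 1)
  have x10 : Aff.lin (el 1 0 ne10 X) ∈ S := by
    simpa using el_comm_mem ne10 ne12 ne20 (c12 1) x20
  have x01 : Aff.lin (el 0 1 ne01 X) ∈ S := by
    simpa using el_comm_mem ne01 ne02 ne21 (c02 1) x21
  have x12 : Aff.lin (el 1 2 ne12 X) ∈ S := by
    simpa using el_comm_mem ne12 ne10 ne02 x10 (c02 1)
  have x02 : Aff.lin (el 0 2 ne02 X) ∈ S := by
    simpa using el_comm_mem ne02 ne01 ne12 x01 (c12 1)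
  have cases6 : ∀ (P : ∀ i j : Fin 3, i ≠ j → Prop), P 0 1 ne01 → P 0 2 ne02 → P 1 0 ne10 →
      P 1 2 ne12 → P 2 0 ne20 → P 2 1 ne21 → ∀ i j h, P i j h := by
    intro P a b c d e f i j h
    have hi : i = 0 ∨ i = 1 ∨ i = 2 := fin3_cases i
    have hj : j = 0 ∨ j = 1 ∨ j = 2 := fin3_cases j
    rcases hi with rfl | rfl | rfl <;> rcases hj with rfl | rfl | rfl <;>
      first | exact absurd rfl h | assumption
  have hC : ∀ a : ZMod 5, ∀ i j h, Aff.lin (el i j h (C a)) ∈ S := fun a =>
    cases6 (fun i j h => Aff.lin (el i j h (C a)) ∈ S) (c01 a) (c02 a) (c10 a) (c12 a) (c20 a)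
      (c21 a)
  have hX : ∀ i j h, Aff.lin (el i j h X) ∈ S :=
    cases6 (fun i j h => Aff.lin (el i j h X) ∈ S) x01 x02 x10 x12 x20 x21
  induction r using Polynomial.induction_on generalizing i j with
  | C a => exact hC a i j h
  | add p q hp hq => rw [el_add, Aff.lin_mul]; exact S.mul_mem (hp i j h) (hq i j h)
  | monomial n a ih =>
    obtain ⟨k, hik, hkj⟩ := third i j h
    rw [pow_succ, ← mul_assoc]
    exact el_comm_mem h hik hkj (ih i k hik) (hX k j hkj)

theorem tr_single_mem (hS : ∀ i a, gen i a ∈ S) {i j : Fin 3} (h : i ≠ j)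
    (hj : Aff.tr (Pi.single j (1 : RR)) ∈ S) (r : RR) : Aff.tr (Pi.single i r) ∈ S := by
  have h1 := S.mul_mem (el_mem hS i j h r) hj
  rw [Aff.lin_mul_tr, el_mulVec, Aff.tr_add, Pi.single_eq_same, mul_one] at h1
  exact (S.mul_mem_cancel_left hj).1 ((S.mul_mem_cancel_right (el_mem hS i j h r)).1 h1)

theorem tr_mem (hS : ∀ i a, gen i a ∈ S) (v : VV) : Aff.tr v ∈ S := by
  have h2 : Aff.tr (Pi.single 2 (1 : RR)) ∈ S := by
    have := hS 2 ![0, 0, 1]
    convert this using 1
    change _ = g2 _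
    refine Aff.ext ?_ ?_
    · simp [g2]
    · apply Units.ext
      simp [g2, lp1, el_val]
  have h0 := tr_single_mem hS ne02 h2
  have h1 := tr_single_mem hS ne12 h2
  have h2' := tr_single_mem hS ne20 (h0 1)
  have : v = Pi.single 0 (v 0) + Pi.single 1 (v 1) + Pi.single 2 (v 2) := by
    ext1 i; fin_cases i <;> simp
  rw [this, Aff.tr_add, Aff.tr_add]
  exact S.mul_mem (S.mul_mem (h0 _) (h1 _)) (h2' _)

theorem lin_gen_mem (hS : ∀ i a, gen i a ∈ S) (i : Fin 3) (a : Z3) : Aff.lin (gen i a).A ∈ S := by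
  have h1 := hS i a
  rw [Aff.eq_tr_mul_lin (gen i a)] at h1
  exact (S.mul_mem_cancel_left (tr_mem hS _)).1 h1

end Generation

/-- the compression -/
def theta (g : LL) : LL := ⟨(X : RR) • g.v, g.A⟩

/-- the fraction field -/
abbrev KK : Type := FractionRing RR

instance : Countable RR :=
  Cardinal.mk_le_aleph0_iff.1 (Polynomial.cardinalMk_le_max.trans (by simp))

instance : Countable KK := by
  have : Function.Surjective (fun p : RR × RR => algebraMap RR KK p.1 / algebraMap RR KK p.2) := by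
    intro z
    obtain ⟨x, y, -, h⟩ := IsFractionRing.div_surjective (A := RR) z
    exact ⟨(x, y), h⟩
  exact this.countable

/-- the ambient group -/
abbrev GG : Type := Aff KK

/-- the inclusion -/
def iota : LL →* GG := Aff.map (algebraMap RR KK)

theorem xK_ne : algebraMap RR KK X ≠ 0 :=
  (map_ne_zero_iff _ (IsFractionRing.injective RR KK)).2 X_ne_zero

/-- the compressing element -/
def tt : GG := Aff.lin (Matrix.GeneralLinearGroup.scalar (Fin 3) (Units.mk0 _ xK_ne))

theorem tt_mul (g : LL) : tt * iota g = iota (theta g) * tt := by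
  refine Aff.ext ?_ ?_
  · ext1 i
    simp [tt, iota, Aff.map, theta, Algebra.smul_def]
  · apply Units.ext
    simp only [tt, iota, Aff.map, theta, Aff.mul_A, Aff.lin_A, Units.val_mul, MonoidHom.coe_mk,
      OneHom.coe_mk]
    exact (Matrix.scalar_commute _ (fun _ => Commute.all _ _) _).eq

theorem not_mem_range : tt⁻¹ * iota (Aff.tr (Pi.single 0 1)) * tt ∉ iota.range := by
  rintro ⟨g, hg⟩
  have h1 : iota (theta g) = iota (Aff.tr (Pi.single 0 1)) := by
    have := tt_mul g
    rw [hg, ← mul_assoc, ← mul_assoc, mul_inv_cancel, one_mul] at this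
    exact (mul_right_cancel this).symm
  have h2 := congrFun (congrArg Aff.v h1) 0
  have h3 : X * g.v 0 = 1 := by
    apply IsFractionRing.injective RR KK
    simpa [iota, Aff.map, theta] using h2
  have h4 := congrArg (fun p : RR => p.coeff 0) h3
  simp at h4

end Crest.Agent.R73
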