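import Mathlib

/-!
Pull-back operators on `ℓ²`, permutation representations and a graded Cuntz pair.
-/

set_option autoImplicit false
set_option linter.unusedSectionVars false

noncomputable section

namespace Crest.Agent.R73

open Finset
open scoped InnerProductSpace ComplexConjugate ENNReal

/-- the Hilbert space `ℓ²(Z)` -/
abbrev L2 (Z : Type) : Type := lp (fun _ : Z => ℂ) 2

variable {Z : Type} [DecidableEq Z]

theorem two_toReal_pos : 0 < (2 : ℝ≥0∞).toReal := by norm_num

omit [DecidableEq Z] in
theorem sum_comp_le {f : Z → Z} (hf : Function.Injective f) (η : L2 Z) (s : Finset Z) :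
    ∑ z ∈ s, ‖η (f z)‖ ^ (2 : ℝ≥0∞).toReal ≤ ‖η‖ ^ (2 : ℝ≥0∞).toReal := by
  have := lp.sum_rpow_le_norm_rpow two_toReal_pos η (s.map ⟨f, hf⟩)
  rwa [sum_map] at this

/-- pull-back along an injection -/
def pull (f : Z → Z) (hf : Function.Injective f) : L2 Z →L[ℂ] L2 Z :=
  LinearMap.mkContinuous
    { toFun := fun η => ⟨fun z => η (f z), memℓp_gen' (sum_comp_le hf η)⟩
      map_add' := fun _ _ => rfl
      map_smul' := fun _ _ => rfl } 1
    (fun η => by
      rw [one_mul]
      exact lp.norm_le_of_forall_sum_le two_toReal_pos (norm_nonneg _) (sum_comp_le hf η))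

omit [DecidableEq Z] in
theorem pull_apply (f : Z → Z) (hf : Function.Injective f) (η : L2 Z) (z : Z) :
    pull f hf η z = η (f z) := rfl

/-- basis vectors -/
def dl (z : Z) : L2 Z := lp.single 2 z 1

theorem dl_apply (z w : Z) : dl z w = if w = z then 1 else 0 := by
  rw [dl, lp.single_apply, Pi.single_apply]

theorem inner_dl (z : Z) (η : L2 Z) : ⟪dl z, η⟫_ℂ = η z := by
  rw [dl, lp.inner_single_left]; simp

theorem norm_dl (z : Z) : ‖dl z‖ = 1 := by
  rw [dl, lp.norm_single (by norm_num)]; simp

theorem ext_dl {S T : L2 Z →L[ℂ] L2 Z} (h : ∀ z, S (dl z) = T (dl z)) : S = T := by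
  refine lp.ext_continuousLinearMap (by norm_num) fun z => ?_
  ext1
  exact h z

theorem star_pull_dl (f : Z → Z) (hf : Function.Injective f) (z : Z) :
    (star (pull f hf)) (dl z) = dl (f z) := by
  refine ext_inner_right ℂ fun η => ?_
  rw [ContinuousLinearMap.star_eq_adjoint, ContinuousLinearMap.adjoint_inner_left, inner_dl,
    inner_dl, pull_apply]

theorem pull_dl (f : Z → Z) (hf : Function.Injective f) (z : Z) : pull f hf (dl (f z)) = dl z := by
  ext w
  rw [pull_apply, dl_apply, dl_apply]
  simp [hf.eq_iff]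

theorem pull_dl_of_not (f : Z → Z) (hf : Function.Injective f) {z : Z} (hz : ∀ w, f w ≠ z) :
    pull f hf (dl z) = 0 := by
  ext w
  rw [pull_apply, dl_apply, if_neg (hz w)]; rfl

theorem pull_mul_star (f : Z → Z) (hf : Function.Injective f) :
    pull f hf * star (pull f hf) = 1 :=
  ext_dl fun z => by rw [mul_apply_eq_comp, star_pull_dl, pull_dl]; rfl

section Perm

variable {G : Type} [Group G] [MulAction G Z]

/-- the permutation operator -/
def permOp (g : G) : L2 Z →L[ℂ] L2 Z := star (pull (fun z : Z => g • z) (MulAction.injective g))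

theorem permOp_dl (g : G) (z : Z) : permOp g (dl z) = dl (g • z) := star_pull_dl _ _ _

variable (G Z) in
/-- the permutation representation -/
def permRep : G →* unitary (L2 Z →L[ℂ] L2 Z) where
  toFun g := ⟨permOp g, by
    rw [Unitary.mem_iff, permOp, star_star]
    refine ⟨pull_mul_star _ _, ext_dl fun z => ?_⟩
    conv_lhs => rw [← smul_inv_smul g z]
    rw [mul_apply_eq_comp, pull_dl (fun z : Z => g • z), star_pull_dl, smul_inv_smul]; rfl⟩
  map_one' := Subtype.ext (ext_dl fun z => by
    change permOp 1 (dl z) = dl z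
    rw [permOp_dl, one_smul])
  map_mul' g h := Subtype.ext (ext_dl fun z => by
    change permOp (g * h) (dl z) = permOp g (permOp h (dl z))
    rw [permOp_dl, permOp_dl, permOp_dl, mul_smul])

theorem permRep_dl (g : G) (z : Z) :
    ((permRep Z G g : unitary (L2 Z →L[ℂ] L2 Z)) : L2 Z →L[ℂ] L2 Z) (dl z) = dl (g • z) :=
  permOp_dl g z

end Perm

/-- the two branches -/
def br (b : Bool) (p : ℤ × ℕ) : ℤ × ℕ := (p.1 + 1, 2 * p.2 + b.toNat)

theorem br_inj (b : Bool) : Function.Injective (br b) := by
  rintro ⟨a, c⟩ ⟨a', c'⟩ h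
  simp only [br, Prod.mk.injEq] at h
  ext <;> simp <;> omega

/-- the graded Cuntz isometries -/
def cS (b : Bool) : L2 (ℤ × ℕ) →L[ℂ] L2 (ℤ × ℕ) := star (pull (br b) (br_inj b))

theorem cS_dl (b : Bool) (p : ℤ × ℕ) : cS b (dl p) = dl (br b p) := star_pull_dl _ _ _

theorem star_cS_mul (b : Bool) : star (cS b) * cS b = 1 := by
  rw [cS, star_star, pull_mul_star]

theorem cS_sum : cS false * star (cS false) + cS true * star (cS true) = 1 := by
  refine ext_dl fun p => ?_
  rw [cS, cS, star_star, star_star, add_apply, mul_apply_eq_comp, mul_apply_eq_comp]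
  obtain ⟨a, c⟩ := p
  rcases Nat.even_or_odd' c with ⟨d, rfl | rfl⟩
  · have e : ((a, 2 * d) : ℤ × ℕ) = br false (a - 1, d) := by simp [br]
    rw [pull_dl_of_not (br true) _ (by
      rintro ⟨a', c'⟩ h
      simp only [br, Prod.mk.injEq, Bool.toNat_true] at h
      omega), e, pull_dl, star_pull_dl, map_zero, add_zero]; rfl
  · have e : ((a, 2 * d + 1) : ℤ × ℕ) = br true (a - 1, d) := by simp [br]
    rw [pull_dl_of_not (br false) _ (by
      rintro ⟨a', c'⟩ h
      simp only [br, Prod.mk.injEq, Bool.toNat_false] at h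
      omega), e, pull_dl, star_pull_dl, map_zero, zero_add]; rfl

end Crest.Agent.R73
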