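import Crest.Agent.R73.Chars
import Crest.Agent.R73.GapC

/-!
Monomial operators on finite sums of copies of a Hilbert space.
-/

set_option autoImplicit false
set_option linter.unusedSectionVars false

noncomputable section

namespace Crest.Agent.R73

open Finset
open scoped InnerProductSpace ComplexConjugate

/-- finite sums of copies of `H` -/
abbrev Vec (J H : Type) : Type := PiLp 2 (fun _ : J => H)

variable {H : Type} [NormedAddCommGroup H] [InnerProductSpace ℂ H]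
variable {J J' J'' : Type} [Fintype J] [Fintype J'] [Fintype J'']

/-- monomial operator -/
def mono (c : J' → ℂ) (σ : J' → J) (T : H →L[ℂ] H) : Vec J H →L[ℂ] Vec J' H :=
  (PiLp.continuousLinearEquiv 2 ℂ (fun _ : J' => H)).symm.toContinuousLinearMap.comp
    (ContinuousLinearMap.pi fun j => c j • T.comp (PiLp.proj 2 (fun _ : J => H) (σ j)))

theorem mono_apply (c : J' → ℂ) (σ : J' → J) (T : H →L[ℂ] H) (η : Vec J H) (j : J') :
    mono c σ T η j = c j • T (η (σ j)) := rfl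

theorem mono_comp (c : J'' → ℂ) (σ : J'' → J') (T : H →L[ℂ] H) (c' : J' → ℂ) (σ' : J' → J)
    (T' : H →L[ℂ] H) : (mono c σ T).comp (mono c' σ' T') =
      mono (fun j => c j * c' (σ j)) (fun j => σ' (σ j)) (T * T') := by
  ext η j
  simp only [ContinuousLinearMap.comp_apply, mono_apply, map_smul, smul_smul,
    mul_apply_eq_comp]

theorem mono_add (c : J' → ℂ) (σ : J' → J) (S T : H →L[ℂ] H) :
    mono c σ (S + T) = mono c σ S + mono c σ T := by
  ext η j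
  simp [mono_apply]

theorem mono_sub (c : J' → ℂ) (σ : J' → J) (S T : H →L[ℂ] H) :
    mono c σ (S - T) = mono c σ S - mono c σ T := by
  ext η j
  simp [mono_apply, smul_sub]

theorem mono_smul (c : J' → ℂ) (σ : J' → J) (z : ℂ) (T : H →L[ℂ] H) :
    mono c σ (z • T) = z • mono c σ T := by
  ext η j
  simp [mono_apply, smul_comm z]

theorem mono_one : mono (fun _ : J => 1) (fun j => j) (1 : H →L[ℂ] H) =
    ContinuousLinearMap.id ℂ (Vec J H) := by
  ext η j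
  simp [mono_apply]

theorem norm_mono_le {c : J' → ℂ} {σ : J' → J} (hc : ∀ j, ‖c j‖ ≤ 1) {N : ℝ} (hN : 0 ≤ N)
    (hσ : ∀ f : J → ℝ, (∀ j, 0 ≤ f j) → ∑ j, f (σ j) ≤ N ^ 2 * ∑ j, f j) (T : H →L[ℂ] H) :
    ‖mono c σ T‖ ≤ N * ‖T‖ := by
  refine ContinuousLinearMap.opNorm_le_bound _ (by positivity) fun η => ?_
  refine le_of_sq_le_sq ?_ (by positivity)
  rw [PiLp.norm_sq_eq_of_L2, mul_pow, mul_pow, PiLp.norm_sq_eq_of_L2]
  calc ∑ j, ‖mono c σ T η j‖ ^ 2 ≤ ∑ j, ‖T‖ ^ 2 * ‖η (σ j)‖ ^ 2 := by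
        refine sum_le_sum fun j _ => ?_
        rw [← mul_pow, mono_apply, norm_smul]
        refine pow_le_pow_left₀ (by positivity) ?_ 2
        calc ‖c j‖ * ‖T (η (σ j))‖ ≤ 1 * (‖T‖ * ‖η (σ j)‖) :=
              mul_le_mul (hc j) (T.le_opNorm _) (norm_nonneg _) zero_le_one
          _ = _ := one_mul _
    _ = ‖T‖ ^ 2 * ∑ j, ‖η (σ j)‖ ^ 2 := by rw [mul_sum]
    _ ≤ ‖T‖ ^ 2 * (N ^ 2 * ∑ j, ‖η j‖ ^ 2) :=
        mul_le_mul_of_nonneg_left (hσ (fun j => ‖η j‖ ^ 2) fun j => by positivity) (by positivity)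
    _ = _ := by ring

theorem inner_mono_left (c : J' → ℂ) (σ : J' → J) (T : H →L[ℂ] H) (η : Vec J H) (ζ : Vec J' H) :
    ⟪mono c σ T η, ζ⟫_ℂ = ∑ j, conj (c j) * ⟪T (η (σ j)), ζ j⟫_ℂ := by
  simp only [PiLp.inner_apply, mono_apply, inner_smul_left]

/-- the twisted action on a level -/
def PP (k : ℕ) (g : LL) (T : H →L[ℂ] H) : Vec (Y k) H →L[ℂ] Vec (Y k) H :=
  mono (fun χ => conj (χ.1 g.v)) (actY g.A) T

/-- the pull-back to the next level -/
def PB (k : ℕ) (T : H →L[ℂ] H) : Vec (Y k) H →L[ℂ] Vec (Y (k + 1)) H :=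
  mono (fun _ => 1) resY T

theorem norm_PP_le (k : ℕ) (g : LL) (T : H →L[ℂ] H) : ‖PP k g T‖ ≤ ‖T‖ := by
  have := norm_mono_le (c := fun χ : Y k => conj (χ.1 g.v)) (σ := actY g.A) (N := 1)
    (fun χ => by rw [Complex.norm_conj, norm_ch]) zero_le_one
    (fun f _ => by
      rw [one_pow, one_mul]
      exact (Fintype.sum_equiv (actE g.A) _ _ fun _ => rfl).le) T
  rwa [one_mul] at this

theorem norm_PB_le (k : ℕ) (T : H →L[ℂ] H) : ‖PB k T‖ ≤ 12 * ‖T‖ := by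
  refine norm_mono_le (fun _ => by simp) (by norm_num) (fun f hf => ?_) T
  rw [sum_Ysucc k (fun χ _ => f χ), mul_sum]
  refine sum_le_sum fun χ _ => ?_
  rw [sum_const, card_univ, nsmul_eq_mul]
  refine mul_le_mul_of_nonneg_right ?_ (hf χ)
  have : (Fintype.card {β : Bc // okB k β} : ℝ) ≤ 125 := by exact_mod_cast card_okB_le k
  linarith

theorem PP_comp (k : ℕ) (g h : LL) (S T : H →L[ℂ] H) :
    (PP k g S).comp (PP k h T) = PP k (g * h) (S * T) := by
  rw [PP, PP, PP, mono_comp]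
  congr 1
  · funext χ
    rw [Aff.mul_v, AddChar.map_add_eq_mul, map_mul]; rfl
  · funext χ
    rw [Aff.mul_A, actY_mul]

theorem PP_one (k : ℕ) : PP k 1 (1 : H →L[ℂ] H) = ContinuousLinearMap.id ℂ _ := by
  rw [PP, ← mono_one]
  congr 1
  · funext χ; simp
  · funext χ; exact actY_one χ

theorem PP_PB (k : ℕ) (g : LL) (S T : H →L[ℂ] H) :
    (PP (k + 1) (theta g) S).comp (PB k T) =
      mono (fun χ => conj ((resY χ).1 g.v)) (fun χ => actY g.A (resY χ)) (S * T) := by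
  rw [PP, PB, mono_comp]
  congr 1
  · funext χ
    rw [mul_one]; rfl
  · funext χ
    exact resY_actY _ _

theorem PB_PP (k : ℕ) (g : LL) (S T : H →L[ℂ] H) :
    (PB k S).comp (PP k g T) =
      mono (fun χ => conj ((resY χ).1 g.v)) (fun χ => actY g.A (resY χ)) (S * T) := by
  rw [PP, PB, mono_comp]
  congr 1
  funext χ
  rw [one_mul]

theorem PP_PB_one (k : ℕ) (g : LL) (S : H →L[ℂ] H) :
    (PP (k + 1) (theta g) S).comp (PB k 1) = (PB k 1).comp (PP k g S) := by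
  rw [PP_PB, PB_PP, mul_one, one_mul]

theorem PP_zero_eq (g : LL) (T : H →L[ℂ] H) : PP 0 g T = PP 0 1 T := by
  rw [PP, PP]
  congr 1
  · funext χ
    rw [(lvl_zero _).1 χ.2]; simp
  · funext χ; exact Subsingleton.elim _ _

theorem inner_PP_adj [CompleteSpace H] (k : ℕ) (g : LL) (T : H →L[ℂ] H) (η ζ : Vec (Y k) H) :
    ⟪PP k g T η, ζ⟫_ℂ = ⟪η, PP k g⁻¹ (star T) ζ⟫_ℂ := by
  rw [PP, inner_mono_left, PiLp.inner_apply]
  refine Fintype.sum_equiv (actE g.A) _ _ fun χ => ?_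
  change _ = ⟪η (actY g.A χ), PP k g⁻¹ (star T) ζ (actY g.A χ)⟫_ℂ
  rw [PP, mono_apply, inner_smul_right, ← actY_mul, Aff.inv_A, mul_inv_cancel, actY_one,
    ContinuousLinearMap.star_eq_adjoint, ContinuousLinearMap.adjoint_inner_right]
  congr 1
  change _ = conj (χ.1 _)
  rw [Aff.inv_v, Matrix.mulVec_neg, Matrix.mulVec_mulVec, ← Units.val_mul, mul_inv_cancel,
    Units.val_one, Matrix.one_mulVec, AddChar.map_neg_eq_inv, Complex.inv_eq_conj (norm_ch _ _)]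

/-- the fibre sum identity -/
theorem inner_PB_tr (k : ℕ) (r : Z3) (T : H →L[ℂ] H) (η ζ : Vec (Y k) H) :
    ⟪PB k 1 η, ((PP (k + 1) (Aff.tr (cV r)) T).comp (PB k 1)) ζ⟫_ℂ =
      (kap k r : ℂ) * ⟪ContinuousLinearMap.id ℂ _ η, PP k 1 T ζ⟫_ℂ := by
  rw [PiLp.inner_apply, PiLp.inner_apply]
  have h1 : ∀ χ : Y (k + 1), ⟪PB k 1 η χ, ((PP (k + 1) (Aff.tr (cV r)) T).comp (PB k 1)) ζ χ⟫_ℂ =
      (fun (ψ : Y k) (β : Bc) => conj (β r) * ⟪η ψ, T (ζ ψ)⟫_ℂ) (resY χ) (cst χ.1) := by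
    intro χ
    simp only [PP, PB, ContinuousLinearMap.comp_apply, mono_apply, one_smul, inner_smul_right,
      Aff.tr_A, actY_one, Aff.tr_v, one_apply_eq_self, cst_apply]
  rw [sum_congr rfl fun χ _ => h1 χ,
    sum_Ysucc k (fun (ψ : Y k) (β : Bc) => conj (β r) * ⟪η ψ, T (ζ ψ)⟫_ℂ), mul_sum]
  refine sum_congr rfl fun ψ _ => ?_
  rw [← sum_mul, sum_okB]
  simp [PP, mono_apply, actY_one]

end Crest.Agent.R73
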