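import Crest.Agent.R73.Mono
import Crest.Agent.Lib.HilbUltra.Basic

/-!
Limit representations on ultraproducts and the induction step between levels.
-/

set_option autoImplicit false
set_option linter.unusedSectionVars false

noncomputable section

namespace Crest.Agent.R73

open Finset Filter Topology Crest.Agent.Lib.HilbUltra
open scoped InnerProductSpace ComplexConjugate

variable {A : Type} [CStarAlgebra A]
variable {H : Type} [NormedAddCommGroup H] [InnerProductSpace ℂ H] [CompleteSpace H]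

/-- asymptotic isometric star homomorphism -/
structure Asymp (ω : Ultrafilter ℕ) (Ψ : ℕ → A → (H →L[ℂ] H)) : Prop where
  bdd : ∀ a, Bdd fun n => Ψ n a
  add : ∀ a b, Tendsto (fun n => ‖Ψ n (a + b) - (Ψ n a + Ψ n b)‖) (ω : Filter ℕ) (𝓝 0)
  smul : ∀ (c : ℂ) a, Tendsto (fun n => ‖Ψ n (c • a) - c • Ψ n a‖) (ω : Filter ℕ) (𝓝 0)
  mul : ∀ a b, Tendsto (fun n => ‖Ψ n (a * b) - Ψ n a * Ψ n b‖) (ω : Filter ℕ) (𝓝 0)
  star : ∀ a, Tendsto (fun n => ‖Ψ n (star a) - star (Ψ n a)‖) (ω : Filter ℕ) (𝓝 0)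
  one : Tendsto (fun n => ‖Ψ n 1 - 1‖) (ω : Filter ℕ) (𝓝 0)
  norm : ∀ a, Tendsto (fun n => ‖Ψ n a‖) (ω : Filter ℕ) (𝓝 ‖a‖)

variable {ω : Ultrafilter ℕ} {Ψ : ℕ → A → (H →L[ℂ] H)}

/-- the ultraproduct at levels `k` -/
abbrev UU (ω : Ultrafilter ℕ) (H : Type) [NormedAddCommGroup H] [InnerProductSpace ℂ H]
    (k : ℕ → ℕ) : Type := UP ω (fun n => Vec (Y (k n)) H)

theorem bdd_PP {T : ℕ → H →L[ℂ] H} (hT : Bdd T) (k : ℕ → ℕ) (g : LL) :
    Bdd fun n => PP (k n) g (T n) := by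
  obtain ⟨C, hC⟩ := hT
  exact ⟨C, fun n => (norm_PP_le _ _ _).trans (hC n)⟩

theorem bdd_PB (k : ℕ → ℕ) : Bdd fun n => PB (k n) (1 : H →L[ℂ] H) :=
  ⟨12 * ‖(1 : H →L[ℂ] H)‖, fun _ => norm_PB_le _ _⟩

theorem bdd_mul {S T : ℕ → H →L[ℂ] H} (hS : Bdd S) (hT : Bdd T) : Bdd fun n => S n * T n :=
  Bdd.comp (E := fun _ => H) (F := fun _ => H) (G := fun _ => H) hS hT

theorem bdd_star {T : ℕ → H →L[ℂ] H} (hT : Bdd T) : Bdd fun n => star (T n) := by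
  obtain ⟨C, hC⟩ := hT
  exact ⟨C, fun n => by rw [norm_star]; exact hC n⟩

theorem op_PP_congr (k : ℕ → ℕ) (g : LL) {S T : ℕ → H →L[ℂ] H} (hS : Bdd S) (hT : Bdd T)
    (h : Tendsto (fun n => ‖S n - T n‖) (ω : Filter ℕ) (𝓝 0)) :
    UP.op ω (fun n => PP (k n) g (S n)) = UP.op ω (fun n => PP (k n) g (T n)) := by
  refine UP.op_congr (bdd_PP hS k g) (bdd_PP hT k g) ?_
  refine squeeze_zero (fun _ => norm_nonneg _) (fun n => ?_) h
  rw [PP, PP, ← mono_sub]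
  exact norm_PP_le _ _ _

variable (ω Ψ) in
/-- limit operators -/
def WW (k : ℕ → ℕ) (g : LL) (a : A) : UU ω H k →ₗ[ℂ] UU ω H k :=
  UP.op ω fun n => PP (k n) g (Ψ n a)

variable (ω H) in
/-- limit pull-back -/
def RB (k : ℕ → ℕ) : UU ω H k →ₗ[ℂ] UU ω H (fun n => k n + 1) :=
  UP.op ω fun n => PB (k n) (1 : H →L[ℂ] H)

section

variable (hΨ : Asymp ω Ψ) (k : ℕ → ℕ)
include hΨ

theorem WW_mul (g h : LL) (a b : A) (ξ : UU ω H k) :
    WW ω Ψ k g a (WW ω Ψ k h b ξ) = WW ω Ψ k (g * h) (a * b) ξ := by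
  rw [WW, WW, WW, ← UP.op_comp (bdd_PP (hΨ.bdd a) k g) (bdd_PP (hΨ.bdd b) k h)]
  simp only [PP_comp]
  rw [op_PP_congr k (g * h) (hΨ.bdd (a * b)) (bdd_mul (hΨ.bdd a) (hΨ.bdd b)) (hΨ.mul a b)]

theorem WW_one (ξ : UU ω H k) : WW ω Ψ k 1 1 ξ = ξ := by
  rw [WW, op_PP_congr k 1 (hΨ.bdd 1) (T := fun _ => 1) ⟨_, fun _ => le_rfl⟩ hΨ.one]
  simp only [PP_one]
  exact UP.op_id ξ

theorem WW_add (g : LL) (a b : A) (ξ : UU ω H k) :
    WW ω Ψ k g (a + b) ξ = WW ω Ψ k g a ξ + WW ω Ψ k g b ξ := by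
  rw [WW, WW, WW, ← UP.op_add (bdd_PP (hΨ.bdd a) k g) (bdd_PP (hΨ.bdd b) k g),
    op_PP_congr k g (hΨ.bdd (a + b)) ((hΨ.bdd a).add (hΨ.bdd b)) (hΨ.add a b)]
  simp only [PP, mono_add]

theorem WW_smul (g : LL) (c : ℂ) (a : A) (ξ : UU ω H k) :
    WW ω Ψ k g (c • a) ξ = c • WW ω Ψ k g a ξ := by
  rw [WW, WW, ← UP.op_smul c (bdd_PP (hΨ.bdd a) k g),
    op_PP_congr k g (hΨ.bdd (c • a)) ((hΨ.bdd a).smul c) (hΨ.smul c a)]
  simp only [PP, mono_smul]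

theorem WW_zero (g : LL) (ξ : UU ω H k) : WW ω Ψ k g 0 ξ = 0 := by
  have := WW_smul hΨ k g 0 0 ξ
  rwa [zero_smul, zero_smul] at this

theorem WW_sub (g : LL) (a b : A) (ξ : UU ω H k) :
    WW ω Ψ k g (a - b) ξ = WW ω Ψ k g a ξ - WW ω Ψ k g b ξ := by
  rw [eq_sub_iff_add_eq, ← WW_add hΨ, sub_add_cancel]

theorem WW_sum {ι : Type} (s : Finset ι) (g : LL) (a : ι → A) (ξ : UU ω H k) :
    WW ω Ψ k g (∑ i ∈ s, a i) ξ = ∑ i ∈ s, WW ω Ψ k g (a i) ξ := by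
  classical
  induction s using Finset.induction_on with
  | empty => simpa using WW_zero hΨ k g ξ
  | insert i s hi ih => rw [sum_insert hi, sum_insert hi, WW_add hΨ, ih]

theorem WW_adj (g : LL) (a : A) (ξ η : UU ω H k) :
    ⟪WW ω Ψ k g a ξ, η⟫_ℂ = ⟪ξ, WW ω Ψ k g⁻¹ (star a) η⟫_ℂ := by
  rw [WW, WW, op_PP_congr k g⁻¹ (hΨ.bdd (star a)) (bdd_star (hΨ.bdd a)) (hΨ.star a)]
  exact UP.inner_op_adj (bdd_PP (hΨ.bdd a) k g) (bdd_PP (bdd_star (hΨ.bdd a)) k g⁻¹)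
    (fun n v w => inner_PP_adj _ _ _ _ _) ξ η

theorem norm_WW_le (g : LL) (a : A) (ξ : UU ω H k) : ‖WW ω Ψ k g a ξ‖ ≤ ‖a‖ * ‖ξ‖ := by
  obtain ⟨x, hx, rfl⟩ := UP.exists_mk ξ
  rw [WW, UP.op_mk (bdd_PP (hΨ.bdd a) k g) hx]
  refine le_of_tendsto_of_tendsto' (UP.tendsto_norm ((bdd_PP (hΨ.bdd a) k g).apply hx))
    ((hΨ.norm a).mul (UP.tendsto_norm hx)) fun n => ?_
  exact (ContinuousLinearMap.le_opNorm _ _).trans
    (mul_le_mul_of_nonneg_right (norm_PP_le _ _ _) (norm_nonneg _))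

theorem WW_RB (g : LL) (a : A) (ξ : UU ω H k) :
    WW ω Ψ (fun n => k n + 1) (theta g) a (RB H ω k ξ) = RB H ω k (WW ω Ψ k g a ξ) := by
  have h1 := UP.op_comp (ω := ω) (bdd_PP (hΨ.bdd a) (fun n => k n + 1) (theta g))
    (bdd_PB (H := H) k) ξ
  have h2 := UP.op_comp (ω := ω) (bdd_PB (H := H) k) (bdd_PP (hΨ.bdd a) k g) ξ
  have h3 : (fun n => (PP (k n + 1) (theta g) (Ψ n a)).comp (PB (k n) (1 : H →L[ℂ] H))) =
      fun n => (PB (k n) (1 : H →L[ℂ] H)).comp (PP (k n) g (Ψ n a)) :=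
    funext fun n => PP_PB_one _ _ _
  exact h1.symm.trans ((congrArg (fun T => UP.op ω T ξ) h3).trans h2)

theorem inner_RB_tr (r : Z3) (κ : ℝ) (hκ : ∀ n, kap (k n) r = κ) (a : A) (η ζ : UU ω H k) :
    ⟪RB H ω k η, WW ω Ψ (fun n => k n + 1) (Aff.tr (cV r)) a (RB H ω k ζ)⟫_ℂ =
      (κ : ℂ) * ⟪η, WW ω Ψ k 1 a ζ⟫_ℂ := by
  have h1 := UP.op_comp (ω := ω) (bdd_PP (hΨ.bdd a) (fun n => k n + 1) (Aff.tr (cV r)))
    (bdd_PB (H := H) k) ζ
  have h2 := UP.inner_op_eq (ω := ω) (bdd_PB (H := H) k)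
    ((bdd_PP (hΨ.bdd a) (fun n => k n + 1) (Aff.tr (cV r))).comp (bdd_PB k))
    Bdd.id (bdd_PP (hΨ.bdd a) k 1) κ
    (fun n v w => (inner_PB_tr (k n) r (Ψ n a) v w).trans (by rw [hκ])) η ζ
  rw [h1, UP.op_id] at h2
  exact h2

theorem inner_WW_unitary (g : LL) (a : unitary A) (ξ η : UU ω H k) :
    ⟪WW ω Ψ k g a ξ, WW ω Ψ k g a η⟫_ℂ = ⟪ξ, η⟫_ℂ := by
  rw [WW_adj hΨ, WW_mul hΨ, inv_mul_cancel, Unitary.coe_star_mul_self, WW_one hΨ]

theorem norm_WW_unitary (g : LL) (a : unitary A) (ξ : UU ω H k) : ‖WW ω Ψ k g a ξ‖ = ‖ξ‖ := by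
  rw [@norm_eq_sqrt_re_inner ℂ, inner_WW_unitary hΨ, ← norm_eq_sqrt_re_inner]

end

/-- the limit representation -/
def PiU (hΨ : Asymp ω Ψ) (u : GG →* unitary A) (k : ℕ → ℕ) : LL →* (UU ω H k →ₗ[ℂ] UU ω H k) where
  toFun g := WW ω Ψ k g (u (iota g))
  map_one' := by
    ext ξ
    rw [map_one, map_one]
    exact WW_one hΨ k ξ
  map_mul' g h := by
    ext ξ
    rw [map_mul, map_mul]
    exact (WW_mul hΨ k g h _ _ ξ).symm

variable (hΨ : Asymp ω Ψ) (u : GG →* unitary A) (k : ℕ → ℕ)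

theorem PiU_apply (g : LL) (ξ : UU ω H k) : PiU hΨ u k g ξ = WW ω Ψ k g (u (iota g)) ξ := rfl

theorem isUni_PiU : IsUni (PiU hΨ u k) := fun g v w => inner_WW_unitary hΨ k g _ v w

/-- the induced vector -/
def indVec (η : UU ω H k) : UU ω H (fun n => k n + 1) :=
  ∑ r : Z3, PiU hΨ u (fun n => k n + 1) (Aff.tr (cV r)) (RB H ω k (WW ω Ψ k 1 (u tt) η))

theorem theta_fix {η : UU ω H k} (hη : ∀ g ∈ Lam, PiU hΨ u k g η = η) {h : LL} (hh : h ∈ Lam) :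
    PiU hΨ u (fun n => k n + 1) (theta h) (RB H ω k (WW ω Ψ k 1 (u tt) η)) =
      RB H ω k (WW ω Ψ k 1 (u tt) η) := by
  rw [PiU_apply, WW_RB hΨ, WW_mul hΨ, mul_one, ← Submonoid.coe_mul, ← map_mul, ← tt_mul, map_mul,
    Submonoid.coe_mul]
  conv_rhs => rw [← hη h hh, PiU_apply, WW_mul hΨ, one_mul]

theorem indVec_fixed {η : UU ω H k} (hη : ∀ g ∈ Lam, PiU hΨ u k g η = η) {g : LL} (hg : g ∈ Lam) :
    PiU hΨ u (fun n => k n + 1) g (indVec hΨ u k η) = indVec hΨ u k η := by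
  refine fixed_Lam (fun i a => ?_) hg
  have hA := lin_gen_mem gen_mem_Lam i a
  generalize gen i a = g at hA
  rw [indVec, map_sum]
  have hb : Function.Bijective fun r : Z3 => c0 (g.v + (g.A : Matrix _ _ RR).mulVec (cV r)) := by
    have := (Equiv.addLeft (c0 g.v)).bijective.comp (c0_bijective g.A)
    convert this using 1
    funext r
    ext1 i
    simp [c0]
  refine Fintype.sum_bijective _ hb _ _ fun r => ?_
  set w := g.v + (g.A : Matrix _ _ RR).mulVec (cV r) with hw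
  have e : g * Aff.tr (cV r) = Aff.tr (cV (c0 w)) * theta (Aff.tr (dX w) * Aff.lin g.A) := by
    refine Aff.ext ?_ ?_
    · simp [theta, cV_add_dX, hw]
    · simp [theta]
  rw [← Module.End.mul_apply, ← map_mul, e, map_mul, Module.End.mul_apply,
    theta_fix hΨ u k hη (Lam.mul_mem (tr_mem gen_mem_Lam _) hA)]

theorem inner_indVec (κ : Z3 → ℝ) (hκ : ∀ n r, kap (k n) r = κ r) (η : UU ω H k) :
    ⟪RB H ω k (WW ω Ψ k 1 (u tt) η), indVec hΨ u k η⟫_ℂ =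
      ∑ r : Z3, (κ r : ℂ) * ⟪WW ω Ψ k 1 (u tt) η,
        WW ω Ψ k 1 (u (iota (Aff.tr (cV r)))) (WW ω Ψ k 1 (u tt) η)⟫_ℂ := by
  rw [indVec, inner_sum]
  refine sum_congr rfl fun r _ => ?_
  rw [PiU_apply, inner_RB_tr hΨ k r (κ r) (fun n => hκ n r)]

theorem indVec_ne_zero_succ (hk : ∀ n, k n ≠ 0) {η : UU ω H k} (hη : η ≠ 0) :
    indVec hΨ u k η ≠ 0 := by
  intro h0
  have := inner_indVec hΨ u k (fun r => if r = 0 then 125 else 0)
    (fun n r => by simp [kap, hk n]) η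
  rw [h0, inner_zero_right, sum_eq_single (0 : Z3) (fun r _ hr => by simp [hr]) (by simp),
    cV_zero, Aff.tr_zero, map_one, map_one, OneMemClass.coe_one, WW_one hΨ,
    inner_WW_unitary hΨ] at this
  simp [hη] at this

/-- the element detecting the base case -/
def gBase : GG := tt⁻¹ * iota (Aff.tr (Pi.single 0 1)) * tt

theorem indVec_ne_zero_base {η : UU ω H (fun _ => 0)}
    (hη : WW ω Ψ (fun _ => 0) 1 (u gBase) η ≠ η) : indVec hΨ u (fun _ => 0) η ≠ 0 := by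
  intro h0
  apply hη
  have h1 := inner_indVec hΨ u (fun _ => 0) (fun r => (if r = 0 then 125 else 0) - 1)
    (fun n r => by simp [kap]) η
  set ζ := WW ω Ψ (fun _ => 0) 1 (u tt) η with hζ
  set Φ : Z3 → UU ω H (fun _ => 0) :=
    fun r => WW ω Ψ (fun _ => 0) 1 (u (iota (Aff.tr (cV r)))) ζ with hΦ
  have hn : ∀ r, ‖Φ r‖ = ‖ζ‖ := fun r => norm_WW_unitary hΨ _ _ _ _
  have hΦ0 : Φ 0 = ζ := by
    simp only [hΦ]
    rw [cV_zero, Aff.tr_zero, map_one, map_one, OneMemClass.coe_one, WW_one hΨ]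
  have h2 : ∑ r : Z3, ‖ζ - Φ r‖ ^ 2 = 0 := by
    rw [h0, inner_zero_right] at h1
    have h3 := congrArg Complex.re h1
    simp only [Complex.zero_re, Complex.re_sum, Complex.re_ofReal_mul, sub_mul,
      sum_sub_distrib, one_mul] at h3
    rw [sum_eq_single (0 : Z3) (fun r _ hr => by simp [hr]) (by simp)] at h3
    change 0 = _ * (⟪ζ, Φ 0⟫_ℂ).re - ∑ r, (⟪ζ, Φ r⟫_ℂ).re at h3
    rw [hΦ0, ← RCLike.re_to_complex, ← norm_sq_eq_re_inner] at h3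
    simp only [@norm_sub_sq ℂ, hn, sum_add_distrib, sum_sub_distrib, sum_const, card_univ,
      card_Z3, nsmul_eq_mul, ← mul_sum, RCLike.re_to_complex]
    simp only [if_true] at h3
    push_cast
    linarith
  have h4 := (sum_eq_zero_iff_of_nonneg fun r _ => sq_nonneg _).1 h2 (Pi.single 0 1) (mem_univ _)
  rw [pow_eq_zero_iff two_ne_zero, norm_eq_zero, sub_eq_zero] at h4
  have h5 : cV (Pi.single 0 1) = Pi.single 0 1 := by
    ext1 i; fin_cases i <;> simp [cV]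
  simp only [hΦ] at h4
  rw [h5] at h4
  have h6 := congrArg (WW ω Ψ (fun _ => 0) 1 (u tt⁻¹)) h4
  rw [hζ, WW_mul hΨ, WW_mul hΨ, WW_mul hΨ] at h6
  simp only [mul_one, ← Submonoid.coe_mul, ← map_mul, inv_mul_cancel, map_one,
    OneMemClass.coe_one] at h6
  rw [WW_one hΨ] at h6
  exact h6.symm

end Crest.Agent.R73
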